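import Mathlib

/-!
# Asymptotic uniform convexity and asymptotic midpoint uniform convexity (definitions)
-/

namespace Vale.Agent.P069

section

variable {E : Type} [NormedAddCommGroup E] [NormedSpace ℝ E]

/-- `F` is a closed subspace of finite codimension. -/
def IsCof (F : Submodule ℝ E) : Prop :=
  IsClosed (F : Set E) ∧ FiniteDimensional ℝ (E ⧸ F)

/-- The modulus of asymptotic uniform convexity of the norm `N`. -/
noncomputable def aucMod (N : E → ℝ) (t : ℝ) : EReal :=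
  ⨅ (x : E) (_ : N x = 1), ⨆ (F : Submodule ℝ E) (_ : IsCof F),
    ⨅ (y : E) (_ : y ∈ F ∧ N y = 1), ((N (x + t • y) - 1 : ℝ) : EReal)

/-- The modulus of asymptotic midpoint uniform convexity of the norm `N`. -/
noncomputable def amucMod (N : E → ℝ) (t : ℝ) : EReal :=
  ⨅ (x : E) (_ : N x = 1), ⨆ (F : Submodule ℝ E) (_ : IsCof F),
    ⨅ (y : E) (_ : y ∈ F ∧ N y = 1), ((max (N (x + t • y)) (N (x - t • y)) - 1 : ℝ) : EReal)

/-- `N` is asymptotically uniformly convex. -/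
def AUC (N : E → ℝ) : Prop := ∀ t : ℝ, 0 < t → 0 < aucMod N t

/-- `N` is asymptotically midpoint uniformly convex. -/
def AMUC (N : E → ℝ) : Prop := ∀ t : ℝ, 0 < t → 0 < amucMod N t

/-- `N` is a norm on `E` equivalent to the given norm. -/
def IsEquivNorm (N : E → ℝ) : Prop :=
  (∀ x y, N (x + y) ≤ N x + N y) ∧ (∀ (c : ℝ) (x : E), N (c • x) = |c| * N x) ∧
    ∃ a b : ℝ, 0 < a ∧ 0 < b ∧ ∀ x, a * ‖x‖ ≤ N x ∧ N x ≤ b * ‖x‖

end

end Vale.Agent.P069
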