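import Vale.Agent.P069.Min

/-!
# The key inequality behind asymptotic midpoint uniform convexity
-/

namespace Vale.Agent.P069

lemma sqrt_cs (A : Finset ℕ) (f g h : ℕ → ℝ) (hf : ∀ n, 0 ≤ f n) (hg : ∀ n, 0 ≤ g n)
    (hh : ∀ n, h n ^ 2 = f n * g n) {F G : ℝ} (hF : 0 ≤ F)
    (h1 : ∑ n ∈ A, f n ≤ F) (h2 : ∑ n ∈ A, g n ≤ G) :
    (∑ n ∈ A, h n) ^ 2 ≤ F * G := by
  refine (Finset.sum_sq_le_sum_mul_sum_of_sq_eq_mul A (fun n _ => hf n) (fun n _ => hg n)
    (fun n _ => hh n)).trans ?_
  exact mul_le_mul h1 h2 (Finset.sum_nonneg fun n _ => hg n) hF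

/-- The core estimate. -/
theorem core {b z : List ℕ → ℝ} (hb : b ∈ XS) {S : Finset (List ℕ)} (hS : Sub S)
    (hbS : ∀ s, s ∉ S → b s = 0) (hzS : ∀ s, s ∈ S → z s = 0)
    {u v u' v' : List ℕ → ℝ} (h : Dec (b + z) u v) (h' : Dec (b - z) u' v') {C : ℝ}
    (hC : u [] + v [] ≤ C) (hC' : u' [] + v' [] ≤ C) :
    NN z ^ 4 ≤ 1024 * C ^ 3 * (C - NN b) := by
  classical
  -- averages
  set U : List ℕ → ℝ := fun s => (1 / 2) * u s + (1 / 2) * u' s with hU
  set V : List ℕ → ℝ := fun s => (1 / 2) * v s + (1 / 2) * v' s with hV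
  have hDU : D U := (h.hu.smul (by norm_num : (0 : ℝ) ≤ 1 / 2)).add
    (h'.hu.smul (by norm_num : (0 : ℝ) ≤ 1 / 2))
  have hDV : D V := (h.hv.smul (by norm_num : (0 : ℝ) ≤ 1 / 2)).add
    (h'.hv.smul (by norm_num : (0 : ℝ) ≤ 1 / 2))
  have hUV : Dec b U V := by
    refine ⟨hDU, hDV, fun s => ?_⟩
    have e1 := h.eq s
    have e2 := h'.eq s
    rw [Pi.add_apply] at e1
    rw [Pi.sub_apply] at e2
    simp only [hU, hV]
    linarith
  have hm := m0_dec hb
  set p : List ℕ → ℝ := m0 b with hp
  set q : List ℕ → ℝ := fun s => m0 b s - b s with hq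
  have hpU : ∀ s, p s ≤ U s := fun s => m0_le hUV s
  have hz0 : ∀ s, 0 ≤ U s - p s := fun s => sub_nonneg.mpr (hpU s)
  have hzV : ∀ s, V s - q s = U s - p s := by
    intro s
    have e1 := hUV.eq s
    have e2 := hm.eq s
    linarith
  have hPU : D (fun s => U s + p s) := hDU.add hm.hu
  have hPV : D (fun s => V s + q s) := hDV.add hm.hv
  -- the weight function
  set g : List ℕ → ℝ := fun s => Real.sqrt ((U s - p s) * (U s + p s)) * (V s + q s) with hg
  have hg0 : ∀ s, 0 ≤ g s := fun s => mul_nonneg (Real.sqrt_nonneg _) (hPV.nonneg s)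
  have hoff : ∀ s, s ∉ S → U s = V s ∧ p s = 0 ∧ q s = 0 := by
    intro s hs
    have e1 := hUV.eq s
    rw [hbS s hs] at e1
    have e2 : p s = 0 := m0_off hb hS hbS hs
    refine ⟨by linarith, e2, ?_⟩
    simp only [hq]
    rw [← hp, e2, hbS s hs]; ring
  have hgoff : ∀ s, s ∉ S → g s = U s ^ 2 := by
    intro s hs
    obtain ⟨e1, e2, e3⟩ := hoff s hs
    simp only [hg]
    have e4 : Real.sqrt ((U s - p s) * (U s + p s)) * (V s + q s)
        = Real.sqrt (U s * U s) * U s := by
      rw [e2, e3, ← e1]; congr 1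
      · congr 1; ring
      · ring
    rw [e4, Real.sqrt_mul_self (hDU.nonneg s)]
    ring
  -- local superadditivity
  have hloc : ∀ s ∈ S, ∀ A : Finset ℕ, ∑ n ∈ A, g (n :: s) ≤ g s := by
    intro s hs A
    set I := S.image List.headI with hI
    set B := A ∪ I with hB
    have hAB : ∑ n ∈ A, g (n :: s) ≤ ∑ n ∈ B, g (n :: s) :=
      Finset.sum_le_sum_of_subset_of_nonneg Finset.subset_union_left fun _ _ _ => hg0 _
    refine hAB.trans ?_
    have hfin : (∑ n ∈ B, g (n :: s)) ^ 2 ≤ g s ^ 2 := by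
      have hgs : g s ^ 2 = ((U s - p s) * (U s + p s)) * (V s + q s) ^ 2 := by
        simp only [hg]
        rw [mul_pow, Real.sq_sqrt (mul_nonneg (hz0 s) (hPU.nonneg s))]
      rw [hgs]
      rcases tight hb hS hbS s with ht | ht
      · -- the first component is tight
        refine sqrt_cs B (fun n => (U (n :: s) - p (n :: s)) * (U (n :: s) + p (n :: s)))
          (fun n => (V (n :: s) + q (n :: s)) ^ 2) (fun n => g (n :: s))
          (fun n => mul_nonneg (hz0 _) (hPU.nonneg _)) (fun n => sq_nonneg _) (fun n => ?_)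
          (mul_nonneg (hz0 s) (hPU.nonneg s)) ?_ (hPV.sum_le s B)
        · simp only [hg]
          rw [mul_pow, Real.sq_sqrt (mul_nonneg (hz0 _) (hPU.nonneg _))]
        · have e : ∑ n ∈ B, (U (n :: s) - p (n :: s)) * (U (n :: s) + p (n :: s))
              = ∑ n ∈ B, U (n :: s) ^ 2 - ∑ n ∈ B, p (n :: s) ^ 2 := by
            rw [← Finset.sum_sub_distrib]
            exact Finset.sum_congr rfl fun n _ => by ring
          rw [e]
          have e1 := hDU.sum_le s B
          have e2 : p s ^ 2 ≤ ∑ n ∈ B, p (n :: s) ^ 2 := by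
            rw [← ht]
            exact Finset.sum_le_sum_of_subset_of_nonneg Finset.subset_union_right
              fun _ _ _ => sq_nonneg _
          nlinarith
      · -- the second component is tight
        have hcr : (∑ n ∈ B, g (n :: s)) ^ 2
            ≤ ((V s - q s) * (V s + q s)) * ((U s + p s) * (V s + q s)) := by
          refine sqrt_cs B (fun n => (V (n :: s) - q (n :: s)) * (V (n :: s) + q (n :: s)))
            (fun n => (U (n :: s) + p (n :: s)) * (V (n :: s) + q (n :: s)))
            (fun n => g (n :: s))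
            (fun n => mul_nonneg (by rw [hzV]; exact hz0 _) (hPV.nonneg _))
            (fun n => mul_nonneg (hPU.nonneg _) (hPV.nonneg _)) (fun n => ?_)
            (mul_nonneg (by rw [hzV]; exact hz0 _) (hPV.nonneg _)) ?_ ?_
          · simp only [hg]
            rw [mul_pow, Real.sq_sqrt (mul_nonneg (hz0 _) (hPU.nonneg _)), hzV]
            ring
          · have e : ∑ n ∈ B, (V (n :: s) - q (n :: s)) * (V (n :: s) + q (n :: s))
                = ∑ n ∈ B, V (n :: s) ^ 2 - ∑ n ∈ B, q (n :: s) ^ 2 := by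
              rw [← Finset.sum_sub_distrib]
              exact Finset.sum_congr rfl fun n _ => by ring
            rw [e]
            have e1 := hDV.sum_le s B
            have e2 : q s ^ 2 ≤ ∑ n ∈ B, q (n :: s) ^ 2 := by
              have : q s ^ 2 = ∑ n ∈ I, q (n :: s) ^ 2 := ht.symm
              rw [this]
              exact Finset.sum_le_sum_of_subset_of_nonneg Finset.subset_union_right
                fun _ _ _ => sq_nonneg _
            nlinarith
          · have e3 := Finset.sum_mul_sq_le_sq_mul_sq B (fun n => U (n :: s) + p (n :: s))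
              (fun n => V (n :: s) + q (n :: s))
            have e4 := hPU.sum_le s B
            have e5 := hPV.sum_le s B
            have e6 : (∑ n ∈ B, (U (n :: s) + p (n :: s)) * (V (n :: s) + q (n :: s))) ^ 2
                ≤ ((U s + p s) * (V s + q s)) ^ 2 := by
              rw [mul_pow]
              exact e3.trans (mul_le_mul e4 e5 (Finset.sum_nonneg fun _ _ => sq_nonneg _)
                (sq_nonneg _))
            exact abs_le_of_sq_le_sq' e6 (mul_nonneg (hPU.nonneg s) (hPV.nonneg s)) |>.2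
        refine hcr.trans (le_of_eq ?_)
        rw [hzV]; ring
    exact abs_le_of_sq_le_sq' hfin (hg0 s) |>.2
  -- the decomposition of z
  set w : List ℕ → ℝ := fun s => 2 * Real.sqrt (g s) with hw
  have hw0 : ∀ s, 0 ≤ w s := fun s => by positivity
  have hwsq : ∀ s, w s ^ 2 = 4 * g s := by
    intro s
    simp only [hw]
    rw [mul_pow, Real.sq_sqrt (hg0 s)]; norm_num
  have hwoff : ∀ s, s ∉ S → w s = 2 * U s := by
    intro s hs
    simp only [hw]
    rw [hgoff s hs, Real.sqrt_sq (hDU.nonneg s)]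
  have hbadw : ∀ s, ¬ Good s → w s = 0 := by
    intro s hs
    simp only [hw, hg]
    rw [hPV.bad s hs, mul_zero, Real.sqrt_zero, mul_zero]
  have hDw : ∀ c : List ℕ → ℝ, D c → (∀ s, s ∉ S → c s ≤ w s) →
      D (fun s => if s ∈ S then w s else c s) := by
    intro c hc hcw
    refine ⟨fun s => ?_, fun s hs => ?_, fun s A => ?_⟩
    · split_ifs
      · exact hw0 s
      · exact hc.nonneg s
    · split_ifs
      · exact hbadw s hs
      · exact hc.bad s hs
    · by_cases hs : s ∈ S
      · simp only [if_pos hs]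
        rw [hwsq]
        have h1 := hloc s hs A
        have h2 : ∑ n ∈ A, (if n :: s ∈ S then w (n :: s) else c (n :: s)) ^ 2
            ≤ ∑ n ∈ A, 4 * g (n :: s) := by
          refine Finset.sum_le_sum fun n _ => ?_
          rw [← hwsq]
          by_cases hn : n :: s ∈ S
          · rw [if_pos hn]
          · rw [if_neg hn]
            exact pow_le_pow_left₀ (hc.nonneg _) (hcw _ hn) 2
        rw [← Finset.mul_sum] at h2
        linarith
      · simp only [if_neg hs]
        refine le_trans (le_of_eq ?_) (hc.sum_le s A)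
        refine Finset.sum_congr rfl fun n _ => ?_
        rw [if_neg (fun hn => hs (hS.par n s hn))]
  have hdz : Dec z (fun s => if s ∈ S then w s else u s) (fun s => if s ∈ S then w s else v s) := by
    refine ⟨hDw u h.hu fun s hs => ?_, hDw v h.hv fun s hs => ?_, fun s => ?_⟩
    · rw [hwoff s hs]
      simp only [hU]
      linarith [h'.hu.nonneg s]
    · rw [hwoff s hs, (hoff s hs).1]
      simp only [hV]
      linarith [h'.hv.nonneg s]
    · by_cases hs : s ∈ S
      · rw [if_pos hs, if_pos hs, hzS s hs]; ring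
      · rw [if_neg hs, if_neg hs]
        have := h.eq s
        rw [Pi.add_apply, hbS s hs, zero_add] at this
        exact this
  have hNz := NN_le hdz
  simp only [if_pos hS.root] at hNz
  have hNb := NN_le hm
  -- conclusion
  have hpos : 0 ≤ NN z := NN_nonneg z
  have h4 : NN z ^ 2 ≤ 16 * g [] := by
    have : NN z ^ 2 ≤ (w [] + w []) ^ 2 := pow_le_pow_left₀ hpos hNz 2
    have e : (w [] + w []) ^ 2 = 4 * w [] ^ 2 := by ring
    rw [e, hwsq] at this
    linarith
  have h5 : NN z ^ 4 ≤ 256 * g [] ^ 2 := by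
    have := pow_le_pow_left₀ (sq_nonneg (NN z)) h4 2
    nlinarith
  have h6 : g [] ^ 2 = ((U [] - p []) * (U [] + p [])) * (V [] + q []) ^ 2 := by
    simp only [hg]
    rw [mul_pow, Real.sq_sqrt (mul_nonneg (hz0 _) (hPU.nonneg _))]
  have hCUV : U [] + V [] ≤ C := by
    simp only [hU, hV]; linarith
  have hU0 := hDU.nonneg []
  have hV0 := hDV.nonneg []
  have hp0 := hm.hu.nonneg []
  have hq0 := hm.hv.nonneg []
  have hpU0 := hpU []
  have hqV0 : q [] ≤ V [] := by
    have := hzV []
    linarith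
  have hζ : 2 * (U [] - p []) ≤ C - NN b := by
    have := hzV []
    have hb2 : NN b ≤ p [] + q [] := hNb
    linarith
  have hC0 : 0 ≤ C := by linarith
  have hA : U [] + p [] ≤ 2 * C := by linarith
  have hB : V [] + q [] ≤ 2 * C := by linarith
  have hB2 : (V [] + q []) ^ 2 ≤ (2 * C) ^ 2 := pow_le_pow_left₀ (by linarith) hB 2
  have hζ0 := hz0 []
  have h7 : g [] ^ 2 ≤ ((C - NN b) / 2 * (2 * C)) * (2 * C) ^ 2 := by
    rw [h6]
    refine mul_le_mul ?_ hB2 (sq_nonneg _) ?_
    · exact mul_le_mul (by linarith) hA (by linarith) (by linarith)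
    · exact mul_nonneg (by linarith) (by linarith)
  nlinarith

end Vale.Agent.P069
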