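import Vale.Agent.P069.Density
import Vale.Agent.P069.Key
import Vale.Agent.P069.Defs

/-!
# The norm of the tree space is asymptotically midpoint uniformly convex
-/

namespace Vale.Agent.P069

open Filter Topology

/-- Evaluation at a node. -/
noncomputable def ev (s : List ℕ) : X →L[ℝ] ℝ :=
  LinearMap.mkContinuous ((LinearMap.proj s).comp fn) 1 (fun b => by
    rw [one_mul, norm_def, Real.norm_eq_abs]
    exact abs_le_NN (fn_mem b) s)

lemma ev_apply (s : List ℕ) (b : X) : ev s b = fn b s := rfl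

/-- The subspace of elements vanishing on `S`. -/
noncomputable def FS (S : Finset (List ℕ)) : Submodule ℝ X :=
  LinearMap.ker (LinearMap.pi fun s : S => (ev s : X →ₗ[ℝ] ℝ))

lemma mem_FS {S : Finset (List ℕ)} {b : X} : b ∈ FS S ↔ ∀ s ∈ S, fn b s = 0 := by
  unfold FS
  rw [LinearMap.mem_ker]
  constructor
  · intro h s hs
    exact congrFun h ⟨s, hs⟩
  · intro h
    funext s
    exact h s.1 s.2

lemma FS_cof (S : Finset (List ℕ)) : IsCof (FS S) := by
  refine ⟨?_, ?_⟩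
  · have e : (FS S : Set X) = ⋂ s ∈ S, {b : X | ev s b = 0} := by
      ext b
      rw [SetLike.mem_coe, mem_FS]
      simp [ev_apply]
    rw [e]
    refine isClosed_biInter fun s _ => ?_
    exact isClosed_eq (ev s).continuous continuous_const
  · exact LinearEquiv.finiteDimensional
      (LinearMap.quotKerEquivRange (LinearMap.pi fun s : S => (ev s : X →ₗ[ℝ] ℝ))).symm

/-- The tree norm is AMUC. -/
theorem amuc_norm : AMUC (fun x : X => ‖x‖) := by
  intro t ht
  set δ : ℝ := min (1 / 4) (t ^ 4 / 65536) with hδ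
  have hδ0 : 0 < δ := by positivity
  have hδ1 : δ ≤ 1 / 4 := min_le_left _ _
  have hδ2 : δ ≤ t ^ 4 / 65536 := min_le_right _ _
  refine lt_of_lt_of_le (b := (δ : EReal)) (by exact_mod_cast hδ0) ?_
  refine le_iInf₂ fun x hx => ?_
  obtain ⟨S, hS, hxS⟩ := density x hδ0
  refine le_trans ?_ (le_iSup₂ (FS S) (FS_cof S))
  refine le_iInf₂ fun y hy => ?_
  obtain ⟨hyF, hy1⟩ := hy
  rw [EReal.coe_le_coe_iff]
  by_contra hc
  push Not at hc
  set μ := max ‖x + t • y‖ ‖x - t • y‖ with hμ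
  have h1 : ‖x + t • y‖ ≤ μ := le_max_left _ _
  have h2 : ‖x - t • y‖ ≤ μ := le_max_right _ _
  have hx' : ‖x‖ = 1 := hx
  have hy' : ‖y‖ = 1 := hy1
  set b := P S hS x with hb
  have hbn : ‖x‖ - δ ≤ ‖b‖ := by
    have := norm_sub_norm_le x b
    linarith
  have h3 : ‖b + t • y‖ < μ + 2 * δ := by
    have e : b + t • y = (x + t • y) - (x - b) := by abel
    rw [e]
    have := norm_sub_le (x + t • y) (x - b)
    linarith
  have h4 : ‖b - t • y‖ < μ + 2 * δ := by
    have e : b - t • y = (x - t • y) - (x - b) := by abel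
    rw [e]
    have := norm_sub_le (x - t • y) (x - b)
    linarith
  obtain ⟨u, v, hd, hlt⟩ := exists_dec (fn_mem (b + t • y)) h3
  obtain ⟨u', v', hd', hlt'⟩ := exists_dec (fn_mem (b - t • y)) h4
  rw [map_add] at hd
  rw [map_sub] at hd'
  have hz : ∀ s, s ∈ S → fn (t • y) s = 0 := by
    intro s hs
    rw [map_smul, Pi.smul_apply, mem_FS.mp hyF s hs, smul_zero]
  have h5 := core (fn_mem b) hS (fun s hs => fn_P_out hS x hs) hz hd hd' hlt.le hlt'.le
  rw [← norm_def, ← norm_def, norm_smul, hy', mul_one, Real.norm_eq_abs, abs_of_pos ht] at h5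
  have hμ0 : 0 ≤ μ := (norm_nonneg _).trans h1
  have h6 : (μ + 2 * δ) ^ 3 ≤ 2 ^ 3 := pow_le_pow_left₀ (by linarith) (by linarith) 3
  have h7 : μ + 2 * δ - ‖b‖ ≤ 4 * δ := by linarith
  have h8 : (1024 : ℝ) * (μ + 2 * δ) ^ 3 * (μ + 2 * δ - ‖b‖) ≤ 1024 * 2 ^ 3 * (4 * δ) := by
    have h9 : 0 ≤ μ + 2 * δ - ‖b‖ ∨ μ + 2 * δ - ‖b‖ < 0 := le_or_gt 0 _
    have h10 : 0 ≤ (μ + 2 * δ) ^ 3 := by positivity
    rcases h9 with h9 | h9
    · exact mul_le_mul (by linarith) h7 h9 (by norm_num)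
    · nlinarith
  have ht4 : 0 < t ^ 4 := by positivity
  nlinarith

end Vale.Agent.P069
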