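import Mathlib

/-!
# Reflexivity (definition)
-/

namespace Vale.Agent.P069

/-- `E` is reflexive: the canonical map of `E` into its bidual is onto. -/
def IsReflexiveSpace (E : Type) [NormedAddCommGroup E] [NormedSpace ℝ E] : Prop :=
  Function.Surjective (NormedSpace.inclusionInDoubleDual ℝ E)

end Vale.Agent.P069
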