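import Vale.Agent.P069.Glue

/-!
# Density of finitely supported elements, restrictions
-/

namespace Vale.Agent.P069

open Filter Topology

/-- Tails of elements of the cone. -/
lemma tail_lemma {h : List ℕ → ℝ} (hh : D h) : ∀ t, Good t → ∀ ε : ℝ, 0 < ε →
    ∃ (S : Finset (List ℕ)) (w : List ℕ → ℝ), D w ∧ w [] ≤ ε ∧
      ∀ s, t <:+ s → s ∉ S → h s ≤ w s := by
  classical
  refine wf_ind _ fun t ht ih ε hε => ?_
  have hsum : Summable fun n => h (n :: t) ^ 2 :=
    summable_of_sum_le (fun n => sq_nonneg _) (hh.sum_le t)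
  obtain ⟨B, hB⟩ := summable_iff_vanishing_norm.mp hsum ((ε / 2) ^ 2) (by positivity)
  have hB' : ∀ T : Finset ℕ, (∀ n ∈ T, n ∈ (↑B : Set ℕ)ᶜ) → ∑ n ∈ T, h (n :: t) ^ 2 ≤ (ε / 2) ^ 2 := by
    intro T hT
    have := hB T (Finset.disjoint_left.mpr fun n hn hnB => hT n hn (by simpa using hnB))
    rw [Real.norm_eq_abs] at this
    exact (le_abs_self _).trans this.le
  -- child functions for n in B
  have hch : ∀ n : ℕ, ∃ (S : Finset (List ℕ)) (w : List ℕ → ℝ), D w ∧
      w [] ≤ ε / (2 * (B.card + 1)) ∧ ∀ s, n :: t <:+ s → s ∉ S → h s ≤ w s := by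
    intro n
    by_cases hn : Good (n :: t)
    · exact ih n hn _ (by positivity)
    · refine ⟨∅, fun _ => 0, D.zero, by positivity, fun s hs _ => ?_⟩
      rw [hh.bad s (fun hg => hn (good_of_suffix hg hs))]
  choose Sn wn hw1 hw2 hw3 using hch
  let w0 := glue t ((↑B : Set ℕ)ᶜ) (fun _ => h) (ε / 2)
  have hw0 : D w0 := D.glue ht (fun _ _ => hh) (by positivity) hB'
  refine ⟨insert t (B.biUnion Sn), fun s => w0 s + ∑ n ∈ B, wn n s,
    hw0.add (D.finset_sum B fun n _ => hw1 n), ?_, fun s hs hsS => ?_⟩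
  · have e0 : w0 [] = ε / 2 := glue_root _ _ _ _
    have e1 : ∑ n ∈ B, wn n [] ≤ ε / 2 := by
      refine (Finset.sum_le_sum fun n _ => hw2 n).trans ?_
      rw [Finset.sum_const, nsmul_eq_mul, mul_div_assoc', div_le_iff₀ (by positivity)]
      nlinarith
    show w0 [] + ∑ n ∈ B, wn n [] ≤ ε
    linarith
  · rw [Finset.mem_insert, not_or] at hsS
    have hex : ∃ n, n :: t <:+ s := by
      obtain ⟨p, hp⟩ := hs
      rcases List.eq_nil_or_concat p with rfl | ⟨p', n, rfl⟩
      · exfalso; exact hsS.1 hp.symm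
      · exact ⟨n, p', by rw [← hp]; simp⟩
    obtain ⟨n, hn⟩ := hex
    have h0 : 0 ≤ ∑ n ∈ B, wn n s := Finset.sum_nonneg fun n _ => (hw1 n).nonneg s
    by_cases hnB : n ∈ B
    · have h1 : h s ≤ wn n s := by
        refine hw3 n s hn fun h' => hsS.2 ?_
        exact Finset.mem_biUnion.mpr ⟨n, hnB, h'⟩
      have h2 : wn n s ≤ ∑ n ∈ B, wn n s :=
        Finset.single_le_sum (f := fun n => wn n s) (fun n _ => (hw1 n).nonneg s) hnB
      have h3 := hw0.nonneg s
      show h s ≤ w0 s + ∑ n ∈ B, wn n s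
      linarith
    · have : w0 s = h s := glue_in (A := (↑B : Set ℕ)ᶜ) (w := fun _ => h)
        (by simpa using hnB) hn
      show h s ≤ w0 s + ∑ n ∈ B, wn n s
      linarith

/-- All suffixes of elements of a finite set, and the root. -/
lemma exists_sub (S : Finset (List ℕ)) : ∃ S' : Finset (List ℕ), Sub S' ∧ S ⊆ S' := by
  classical
  refine ⟨insert [] (S.biUnion fun s => s.tails.toFinset), ⟨Finset.mem_insert_self _ _, ?_⟩, ?_⟩
  · intro n s h
    rcases Finset.mem_insert.mp h with h | h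
    · exact absurd h (List.cons_ne_nil n s)
    · obtain ⟨r, hr, hs⟩ := Finset.mem_biUnion.mp h
      rw [List.mem_toFinset, List.mem_tails] at hs
      refine Finset.mem_insert_of_mem (Finset.mem_biUnion.mpr ⟨r, hr, ?_⟩)
      rw [List.mem_toFinset, List.mem_tails]
      exact (List.suffix_cons n s).trans hs
  · intro s hs
    refine Finset.mem_insert_of_mem (Finset.mem_biUnion.mpr ⟨s, hs, ?_⟩)
    rw [List.mem_toFinset, List.mem_tails]

lemma Sub.union {S T : Finset (List ℕ)} (hS : Sub S) (hT : Sub T) : Sub (S ∪ T) := by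
  refine ⟨Finset.mem_union_left _ hS.root, fun n s h => ?_⟩
  rcases Finset.mem_union.mp h with h | h
  · exact Finset.mem_union_left _ (hS.par n s h)
  · exact Finset.mem_union_right _ (hT.par n s h)

open Classical in
/-- Restriction of a function to a set. -/
noncomputable def res (Z : Set (List ℕ)) (b : List ℕ → ℝ) (s : List ℕ) : ℝ := if s ∈ Z then b s else 0

/-- The general restriction estimate: `Z` closed under children, the decomposition dominated by
`w` on `Z`. -/
lemma res_dec {b u v w : List ℕ → ℝ} (h : Dec b u v) (hw : D w) {Z : Set (List ℕ)}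
    (hZ : ∀ n s, s ∈ Z → n :: s ∈ Z) (hu : ∀ s ∈ Z, u s ≤ w s) (hv : ∀ s ∈ Z, v s ≤ w s) :
    ∃ u' v', Dec (res Z b) u' v' ∧ u' [] + v' [] ≤ 2 * w [] := by
  classical
  have key : ∀ p : List ℕ → ℝ, D p → (∀ s ∈ Z, p s ≤ w s) →
      D (fun s => if s ∈ Z then p s else w s) := by
    intro p hp hpw
    refine ⟨fun s => ?_, fun s hs => ?_, fun s A => ?_⟩
    · split_ifs
      · exact hp.nonneg s
      · exact hw.nonneg s
    · split_ifs
      · exact hp.bad s hs
      · exact hw.bad s hs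
    · by_cases hs : s ∈ Z
      · rw [if_pos hs]
        refine le_trans (le_of_eq ?_) (hp.sum_le s A)
        refine Finset.sum_congr rfl fun n _ => ?_
        rw [if_pos (hZ n s hs)]
      · rw [if_neg hs]
        refine le_trans (Finset.sum_le_sum fun n _ => ?_) (hw.sum_le s A)
        by_cases hn : n :: s ∈ Z
        · rw [if_pos hn]
          exact pow_le_pow_left₀ (hp.nonneg _) (hpw _ hn) 2
        · rw [if_neg hn]
  refine ⟨_, _, ⟨key u h.hu hu, key v h.hv hv, fun s => ?_⟩, ?_⟩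
  · unfold res
    by_cases hs : s ∈ Z
    · rw [if_pos hs, if_pos hs, if_pos hs]; exact h.eq s
    · rw [if_neg hs, if_neg hs, if_neg hs, sub_self]
  · by_cases hs : ([] : List ℕ) ∈ Z
    · simp only [if_pos hs]
      have := hu _ hs
      have := hv _ hs
      linarith
    · simp only [if_neg hs]
      linarith

lemma res_dec' {b u v : List ℕ → ℝ} (h : Dec b u v) {Z : Set (List ℕ)}
    (hZ : ∀ n s, s ∈ Z → n :: s ∈ Z) :
    ∃ u' v', Dec (res Z b) u' v' ∧ u' [] + v' [] ≤ 2 * (u [] + v []) :=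
  res_dec h (h.hu.add h.hv) hZ (fun s _ => by linarith [h.hv.nonneg s])
    (fun s _ => by linarith [h.hu.nonneg s])

lemma res_mem {b : List ℕ → ℝ} (hb : b ∈ XS) {Z : Set (List ℕ)}
    (hZ : ∀ n s, s ∈ Z → n :: s ∈ Z) : res Z b ∈ XS := by
  obtain ⟨u, v, h⟩ := hb
  obtain ⟨u', v', h', -⟩ := res_dec' h hZ
  exact ⟨u', v', h'⟩

/-- Restriction to a set of nodes closed under children. -/
noncomputable def R (Z : Set (List ℕ)) (hZ : ∀ n s, s ∈ Z → n :: s ∈ Z) : X →L[ℝ] X :=
  LinearMap.mkContinuous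
    { toFun := fun b => mkX (res Z (fn b)) (res_mem (fn_mem b) hZ)
      map_add' := fun b b' => by
        refine fn_inj ?_
        show res Z (fn (b + b')) = res Z (fn b) + res Z (fn b')
        funext s
        rw [Pi.add_apply]
        unfold res
        rw [map_add, Pi.add_apply]
        split_ifs
        · rfl
        · rw [add_zero]
      map_smul' := fun c b => by
        refine fn_inj ?_
        show res Z (fn (c • b)) = c • res Z (fn b)
        funext s
        rw [Pi.smul_apply]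
        unfold res
        rw [map_smul, Pi.smul_apply]
        split_ifs
        · rfl
        · rw [smul_zero] } 2 (fun b => by
    refine le_of_forall_pos_le_add fun ε hε => ?_
    obtain ⟨u, v, h, hlt⟩ := exists_dec (fn_mem b) (r := NN (fn b) + ε / 2) (by linarith)
    obtain ⟨u', v', h', hle⟩ := res_dec' h hZ
    have := NN_le h'
    rw [norm_def, norm_def]
    refine le_trans this ?_
    linarith)

lemma fn_R (Z : Set (List ℕ)) (hZ : ∀ n s, s ∈ Z → n :: s ∈ Z) (b : X) :
    fn (R Z hZ b) = res Z (fn b) := rfl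

lemma R_norm_le (Z : Set (List ℕ)) (hZ : ∀ n s, s ∈ Z → n :: s ∈ Z) (b : X) :
    ‖R Z hZ b‖ ≤ 2 * ‖b‖ := by
  refine (ContinuousLinearMap.le_opNorm _ b).trans ?_
  refine mul_le_mul_of_nonneg_right ?_ (norm_nonneg b)
  exact LinearMap.mkContinuous_norm_le _ (by norm_num) _

lemma Sub.compl {S : Finset (List ℕ)} (hS : Sub S) :
    ∀ n s, s ∈ ((↑S : Set (List ℕ))ᶜ) → n :: s ∈ ((↑S : Set (List ℕ))ᶜ) := by
  intro n s h h'
  exact h (hS.par n s h')

/-- The projection to a finite subtree. -/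
noncomputable def P (S : Finset (List ℕ)) (hS : Sub S) : X →L[ℝ] X :=
  ContinuousLinearMap.id ℝ X - R ((↑S : Set (List ℕ))ᶜ) hS.compl

lemma P_apply (S : Finset (List ℕ)) (hS : Sub S) (b : X) :
    P S hS b = b - R ((↑S : Set (List ℕ))ᶜ) hS.compl b := rfl

lemma fn_P_in {S : Finset (List ℕ)} (hS : Sub S) (b : X) {s : List ℕ} (hs : s ∈ S) :
    fn (P S hS b) s = fn b s := by
  rw [P_apply, map_sub, Pi.sub_apply, fn_R]
  unfold res
  rw [if_neg (by simpa using hs), sub_zero]

lemma fn_P_out {S : Finset (List ℕ)} (hS : Sub S) (b : X) {s : List ℕ} (hs : s ∉ S) :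
    fn (P S hS b) s = 0 := by
  rw [P_apply, map_sub, Pi.sub_apply, fn_R]
  unfold res
  rw [if_pos (by simpa using hs), sub_self]

lemma P_norm_le {S : Finset (List ℕ)} (hS : Sub S) (b : X) : ‖P S hS b‖ ≤ ‖b‖ := by
  classical
  refine le_of_forall_pos_le_add fun ε hε => ?_
  obtain ⟨u, v, h, hlt⟩ := exists_dec (fn_mem b) (r := NN (fn b) + ε) (by linarith)
  have h' : Dec (fn (P S hS b)) (fun s => if s ∈ S then u s else 0)
      (fun s => if s ∈ S then v s else 0) := by
    refine ⟨h.hu.trunc hS, h.hv.trunc hS, fun r => ?_⟩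
    by_cases hr : r ∈ S
    · rw [if_pos hr, if_pos hr, fn_P_in hS b hr]; exact h.eq r
    · rw [if_neg hr, if_neg hr, fn_P_out hS b hr]; ring
  have h2 := NN_le h'
  simp only [if_pos hS.root] at h2
  rw [norm_def, norm_def]
  linarith

/-- Density of the finitely supported elements. -/
lemma density (b : X) {ε : ℝ} (hε : 0 < ε) :
    ∃ (S : Finset (List ℕ)) (hS : Sub S), ‖b - P S hS b‖ ≤ ε := by
  obtain ⟨u, v, h⟩ := fn_mem b
  obtain ⟨S, w, hw, hw0, hS⟩ := tail_lemma (h.hu.add h.hv) [] good_nil (ε / 2) (by linarith)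
  obtain ⟨S', hS', hSS⟩ := exists_sub S
  refine ⟨S', hS', ?_⟩
  have hle : ∀ s ∈ ((↑S' : Set (List ℕ))ᶜ), u s + v s ≤ w s := fun s hs =>
    hS s List.nil_suffix fun h' => hs (hSS h')
  obtain ⟨u', v', h', hc⟩ := res_dec h hw hS'.compl
    (fun s hs => by linarith [hle s hs, h.hv.nonneg s])
    (fun s hs => by linarith [hle s hs, h.hu.nonneg s])
  rw [P_apply, sub_sub_cancel, norm_def, fn_R]
  have := NN_le h'
  linarith

end Vale.Agent.P069
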