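import Vale.Agent.P069.Min

/-!
# Limits, completeness, path functions and gluing
-/

namespace Vale.Agent.P069

open Filter Topology

lemma D.lim {ι : Type*} {l : Filter ι} [l.NeBot] {f : ι → List ℕ → ℝ} (hf : ∀ i, D (f i))
    {u : List ℕ → ℝ} (h : ∀ s, Tendsto (fun i => f i s) l (𝓝 (u s))) : D u := by
  refine ⟨fun s => ge_of_tendsto' (h s) fun i => (hf i).nonneg s, fun s hs => ?_, fun s A => ?_⟩
  · have : Tendsto (fun i => f i s) l (𝓝 0) := by
      simp_rw [fun i => (hf i).bad s hs]
      exact tendsto_const_nhds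
    exact tendsto_nhds_unique (h s) this
  · exact le_of_tendsto_of_tendsto' (tendsto_finset_sum A fun n _ => (h (n :: s)).pow 2)
      ((h s).pow 2) fun i => (hf i).sum_le s A

lemma D.finset_sum {ι : Type*} (S : Finset ι) {f : ι → List ℕ → ℝ} (hf : ∀ i ∈ S, D (f i)) :
    D (fun s => ∑ i ∈ S, f i s) := by
  classical
  induction S using Finset.induction_on with
  | empty => simpa using D.zero
  | insert a S ha ih =>
    have h1 := (hf a (Finset.mem_insert_self a S)).add
      (ih fun i hi => hf i (Finset.mem_insert_of_mem hi))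
    convert h1 using 1
    funext s
    rw [Finset.sum_insert ha]

lemma D.summable {f : ℕ → List ℕ → ℝ} (hf : ∀ k, D (f k)) (hs : Summable fun k => f k [])
    (s : List ℕ) : Summable fun k => f k s :=
  Summable.of_nonneg_of_le (fun k => (hf k).nonneg s) (fun k => (hf k).le_root s) hs

lemma D.tsum {f : ℕ → List ℕ → ℝ} (hf : ∀ k, D (f k)) (hs : Summable fun k => f k []) :
    D (fun s => ∑' k, f k s) := by
  refine D.lim (l := atTop) (f := fun n s => ∑ k ∈ Finset.range n, f k s)
    (fun n => D.finset_sum _ fun i _ => hf i) fun s => ?_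
  exact (D.summable hf hs s).hasSum.tendsto_sum_nat

lemma coe_sum {ι : Type*} (S : Finset ι) (f : ι → X) (s : List ℕ) :
    fn (∑ k ∈ S, f k) s = ∑ k ∈ S, fn (f k) s := by
  rw [map_sum, Finset.sum_apply]

instance : CompleteSpace X := by
  refine NormedAddCommGroup.completeSpace_of_summable_imp_tendsto fun f hf => ?_
  have hex : ∀ k, ∃ u v, Dec (fn (f k)) u v ∧ u [] + v [] < ‖f k‖ + (1 / 2) ^ k := fun k =>
    exists_dec (fn_mem (f k)) (by rw [norm_def]; linarith [pow_pos (by norm_num : (0 : ℝ) < 1 / 2) k])
  choose p q hpq hlt using hex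
  have hsum : Summable fun k => ‖f k‖ + (1 / 2 : ℝ) ^ k :=
    hf.add (summable_geometric_of_lt_one (by norm_num) (by norm_num))
  have hp : Summable fun k => p k [] :=
    Summable.of_nonneg_of_le (fun k => (hpq k).hu.nonneg _)
      (fun k => by linarith [hlt k, (hpq k).hv.nonneg []]) hsum
  have hq : Summable fun k => q k [] :=
    Summable.of_nonneg_of_le (fun k => (hpq k).hv.nonneg _)
      (fun k => by linarith [hlt k, (hpq k).hu.nonneg []]) hsum
  have hP := fun s => D.summable (fun k => (hpq k).hu) hp s
  have hQ := fun s => D.summable (fun k => (hpq k).hv) hq s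
  let a : X := mkX (fun s => ∑' k, p k s - ∑' k, q k s)
    ⟨_, _, D.tsum (fun k => (hpq k).hu) hp, D.tsum (fun k => (hpq k).hv) hq, fun s => rfl⟩
  refine ⟨a, ?_⟩
  rw [tendsto_iff_norm_sub_tendsto_zero]
  have hbound : ∀ n, ‖∑ i ∈ Finset.range n, f i - a‖ ≤ ∑' k, (p (k + n) [] + q (k + n) []) := by
    intro n
    rw [norm_def]
    have hsp : Summable fun k => p (k + n) [] := (summable_nat_add_iff n).mpr hp
    have hsq : Summable fun k => q (k + n) [] := (summable_nat_add_iff n).mpr hq
    have hdec : Dec (fn (∑ i ∈ Finset.range n, f i - a)) (fun s => ∑' k, q (k + n) s)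
        (fun s => ∑' k, p (k + n) s) := by
      refine ⟨D.tsum (fun k => (hpq _).hv) hsq, D.tsum (fun k => (hpq _).hu) hsp, fun s => ?_⟩
      have e1 : fn (∑ i ∈ Finset.range n, f i - a) s
          = ∑ k ∈ Finset.range n, fn (f k) s - (∑' k, p k s - ∑' k, q k s) := by
        rw [map_sub, Pi.sub_apply, coe_sum]
        rfl
      rw [e1]
      have e2 := (hP s).sum_add_tsum_nat_add n
      have e3 := (hQ s).sum_add_tsum_nat_add n
      have e4 : ∑ k ∈ Finset.range n, fn (f k) s
          = ∑ k ∈ Finset.range n, p k s - ∑ k ∈ Finset.range n, q k s := by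
        rw [← Finset.sum_sub_distrib]
        exact Finset.sum_congr rfl fun k _ => (hpq k).eq s
      rw [e4, ← e2, ← e3]; ring
    have := NN_le hdec
    rw [hsp.tsum_add hsq]
    linarith
  have hlim : Tendsto (fun n => ∑' k, (p (k + n) [] + q (k + n) [])) atTop (𝓝 0) :=
    tendsto_sum_nat_add fun k => p k [] + q k []
  exact squeeze_zero (fun n => norm_nonneg _) hbound hlim

/-- Indicator of the path from the root to `t`. -/
noncomputable def pth (t : List ℕ) (s : List ℕ) : ℝ := by
  classical exact if s <:+ t then 1 else 0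

lemma pth_self (t : List ℕ) : pth t t = 1 := by
  unfold pth; rw [if_pos (List.suffix_refl t)]

lemma pth_nil (t : List ℕ) : pth t [] = 1 := by
  unfold pth; rw [if_pos (List.nil_suffix)]

lemma pth_nonneg (t s : List ℕ) : 0 ≤ pth t s := by
  unfold pth; split_ifs <;> norm_num

lemma good_of_suffix {s t : List ℕ} (ht : Good t) (h : s <:+ t) : Good s := by
  induction t with
  | nil => rw [List.suffix_nil.mp h]; exact ht
  | cons m t ih =>
    rcases List.suffix_cons_iff.mp h with h' | h'
    · rw [h']; exact ht
    · exact ih ht.tail h'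

lemma suffix_unique {n n' : ℕ} {t s : List ℕ} (h : n :: t <:+ s) (h' : n' :: t <:+ s) :
    n = n' := by
  have h1 : n :: t <:+ n' :: t := List.suffix_of_suffix_length_le h h' (by simp)
  have h2 := h1.eq_of_length (by simp)
  exact (List.cons.inj h2).1

lemma not_cons_suffix (n : ℕ) (t : List ℕ) : ¬ n :: t <:+ t := by
  intro h
  have := h.length_le
  simp at this

open Classical in
/-- Glue functions on the subtrees below the children `n ∈ A` of `t` to a multiple of the path. -/
noncomputable def glue (t : List ℕ) (A : Set ℕ) (w : ℕ → List ℕ → ℝ) (r : ℝ) (s : List ℕ) : ℝ :=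
  if h : ∃ n ∈ A, n :: t <:+ s then w (Classical.choose h) s else r * pth t s

lemma glue_in {t : List ℕ} {A : Set ℕ} {w : ℕ → List ℕ → ℝ} {r : ℝ} {s : List ℕ} {n : ℕ}
    (hn : n ∈ A) (hs : n :: t <:+ s) : glue t A w r s = w n s := by
  have h : ∃ n ∈ A, n :: t <:+ s := ⟨n, hn, hs⟩
  unfold glue
  rw [dif_pos h, suffix_unique (Classical.choose_spec h).2 hs]

lemma glue_out {t : List ℕ} {A : Set ℕ} {w : ℕ → List ℕ → ℝ} {r : ℝ} {s : List ℕ}
    (h : ¬ ∃ n ∈ A, n :: t <:+ s) : glue t A w r s = r * pth t s := by
  unfold glue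
  rw [dif_neg h]

lemma glue_root (t : List ℕ) (A : Set ℕ) (w : ℕ → List ℕ → ℝ) (r : ℝ) :
    glue t A w r [] = r := by
  rw [glue_out, pth_nil, mul_one]
  rintro ⟨n, -, h⟩
  have := h.length_le
  simp at this

lemma D.glue {t : List ℕ} (ht : Good t) {A : Set ℕ} {w : ℕ → List ℕ → ℝ}
    (hw : ∀ n ∈ A, D (w n)) {r : ℝ} (hr : 0 ≤ r)
    (hsum : ∀ B : Finset ℕ, (∀ n ∈ B, n ∈ A) → ∑ n ∈ B, w n (n :: t) ^ 2 ≤ r ^ 2) :
    D (glue t A w r) := by
  classical
  refine ⟨fun s => ?_, fun s hs => ?_, fun s B => ?_⟩
  · by_cases h : ∃ n ∈ A, n :: t <:+ s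
    · obtain ⟨n, hn, hs⟩ := h
      rw [glue_in hn hs]; exact (hw n hn).nonneg s
    · rw [glue_out h]; exact mul_nonneg hr (pth_nonneg t s)
  · by_cases h : ∃ n ∈ A, n :: t <:+ s
    · obtain ⟨n, hn, hs'⟩ := h
      rw [glue_in hn hs']; exact (hw n hn).bad s hs
    · rw [glue_out h]
      have : pth t s = 0 := by
        unfold pth
        rw [if_neg (fun h' => hs (good_of_suffix ht h'))]
      rw [this, mul_zero]
  · by_cases h : ∃ n ∈ A, n :: t <:+ s
    · obtain ⟨n, hn, hs'⟩ := h
      rw [glue_in hn hs']
      refine le_trans (le_of_eq ?_) ((hw n hn).sum_le s B)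
      refine Finset.sum_congr rfl fun m _ => ?_
      rw [glue_in hn (hs'.trans (List.suffix_cons m s))]
    · rw [glue_out h]
      by_cases hst : s = t
      · subst hst
        rw [pth_self, mul_one]
        have e : ∑ m ∈ B, Vale.Agent.P069.glue s A w r (m :: s) ^ 2
            = ∑ m ∈ B.filter (fun m => m ∈ A), w m (m :: s) ^ 2 := by
          rw [Finset.sum_filter]
          refine Finset.sum_congr rfl fun m _ => ?_
          by_cases hm : m ∈ A
          · rw [if_pos hm, glue_in hm (List.suffix_refl _)]
          · rw [if_neg hm, glue_out]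
            · have : pth s (m :: s) = 0 := by
                unfold pth
                rw [if_neg (not_cons_suffix m s)]
              rw [this]; ring
            · rintro ⟨n, hn, hs⟩
              have := suffix_unique hs (List.suffix_refl (m :: s))
              rw [this] at hn
              exact hm hn
        rw [e]
        exact hsum _ fun n hn => (Finset.mem_filter.mp hn).2
      · have hno : ∀ m, ¬ ∃ n ∈ A, n :: t <:+ m :: s := by
          rintro m ⟨n, hn, hs⟩
          rcases List.suffix_cons_iff.mp hs with h' | h'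
          · exact hst (List.cons.inj h').2.symm
          · exact h ⟨n, hn, h'⟩
        by_cases hex : ∃ m₀, m₀ :: s <:+ t
        · obtain ⟨m₀, hm₀⟩ := hex
          have hs1 : pth t s = 1 := by
            unfold pth
            rw [if_pos ((List.suffix_cons m₀ s).trans hm₀)]
          rw [hs1, mul_one]
          have e : ∀ m ∈ B, m ≠ m₀ → Vale.Agent.P069.glue t A w r (m :: s) ^ 2 = 0 := by
            intro m _ hm
            rw [glue_out (hno m)]
            have : pth t (m :: s) = 0 := by
              unfold pth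
              rw [if_neg (fun h' => hm (suffix_unique h' hm₀))]
            rw [this]; ring
          by_cases hmB : m₀ ∈ B
          · rw [Finset.sum_eq_single m₀ e (fun h' => absurd hmB h'), glue_out (hno m₀)]
            have : pth t (m₀ :: s) = 1 := by
              unfold pth
              rw [if_pos hm₀]
            rw [this, mul_one]
          · rw [Finset.sum_eq_zero fun m hm => e m hm (fun h' => hmB (h' ▸ hm))]
            positivity
        · push Not at hex
          have e : ∀ m ∈ B, Vale.Agent.P069.glue t A w r (m :: s) ^ 2 = 0 := by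
            intro m _
            rw [glue_out (hno m)]
            have : pth t (m :: s) = 0 := by
              unfold pth
              rw [if_neg (hex m)]
            rw [this]; ring
          rw [Finset.sum_eq_zero e]
          positivity

lemma D.pth {t : List ℕ} (ht : Good t) : D (pth t) := by
  have h := D.glue ht (A := ∅) (w := fun _ _ => 0) (fun n hn => absurd hn (Set.notMem_empty n))
    (zero_le_one) (r := 1) (fun B hB => by
      rw [Finset.sum_eq_zero]
      · norm_num
      · intro n hn; exact absurd (hB n hn) (Set.notMem_empty n))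
  convert h using 1
  funext s
  rw [glue_out, one_mul]
  rintro ⟨n, hn, -⟩
  exact hn

end Vale.Agent.P069
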