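import Vale.Agent.P069.NoAUC
import Vale.Agent.P069.AMUCProof

/-!
# The tree space is infinite-dimensional
-/

namespace Vale.Agent.P069

theorem not_fd : ¬ FiniteDimensional ℝ X := by
  intro h
  have hF : IsCof (⊥ : Submodule ℝ X) := by
    refine ⟨?_, inferInstance⟩
    rw [Submodule.bot_coe]
    exact isClosed_singleton
  obtain ⟨n, y, hy, hlt⟩ := near_cof (t := []) good_single hF (η := 1) one_pos
  rw [Submodule.mem_bot] at hy
  subst hy
  rw [sub_zero] at hlt
  have := st_norm_ge (t := []) (good_single n)
  linarith

end Vale.Agent.P069
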