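import Vale.Agent.P069.Tree

/-!
# Minimal decompositions and the key inequality
-/

namespace Vale.Agent.P069

/-- Pointwise minimal first component. -/
noncomputable def m0 (b : List ℕ → ℝ) (s : List ℕ) : ℝ :=
  sInf {r | ∃ u v, Dec b u v ∧ u s = r}

lemma m0_bdd (b : List ℕ → ℝ) (s : List ℕ) : BddBelow {r | ∃ u v, Dec b u v ∧ u s = r} := by
  refine ⟨0, ?_⟩
  rintro r ⟨u, v, h, rfl⟩
  exact h.hu.nonneg s

lemma m0_le {b u v : List ℕ → ℝ} (h : Dec b u v) (s : List ℕ) : m0 b s ≤ u s :=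
  csInf_le (m0_bdd b s) ⟨u, v, h, rfl⟩

lemma le_m0 {b : List ℕ → ℝ} (hb : b ∈ XS) {s : List ℕ} {r : ℝ}
    (h : ∀ u v, Dec b u v → r ≤ u s) : r ≤ m0 b s := by
  obtain ⟨u, v, huv⟩ := hb
  refine le_csInf ⟨u s, u, v, huv, rfl⟩ ?_
  rintro x ⟨u', v', h', rfl⟩
  exact h u' v' h'

lemma m0_nonneg (b : List ℕ → ℝ) (s : List ℕ) : 0 ≤ m0 b s := by
  refine Real.sInf_nonneg ?_
  rintro x ⟨u', v', h', rfl⟩
  exact h'.hu.nonneg s

lemma m0_dec {b : List ℕ → ℝ} (hb : b ∈ XS) : Dec b (m0 b) (fun s => m0 b s - b s) := by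
  have hv0 : ∀ s, 0 ≤ m0 b s - b s := by
    intro s
    have : b s ≤ m0 b s := le_m0 hb fun u v h => by
      have := h.eq s
      have := h.hv.nonneg s
      linarith
    linarith
  obtain ⟨u₁, v₁, h₁⟩ := id hb
  refine ⟨⟨m0_nonneg b, fun s hs => ?_, fun s A => ?_⟩, ⟨hv0, fun s hs => ?_, fun s A => ?_⟩,
    fun s => by ring⟩
  · have := m0_le h₁ s
    rw [h₁.hu.bad s hs] at this
    exact le_antisymm this (m0_nonneg b s)
  · have h : Real.sqrt (∑ n ∈ A, m0 b (n :: s) ^ 2) ≤ m0 b s := by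
      refine le_m0 hb fun u v h => ?_
      refine (Real.sqrt_le_sqrt ?_).trans_eq (Real.sqrt_sq (h.hu.nonneg s))
      refine le_trans (Finset.sum_le_sum fun n _ => ?_) (h.hu.sum_le s A)
      exact pow_le_pow_left₀ (m0_nonneg b _) (m0_le h _) 2
    have h0 : 0 ≤ ∑ n ∈ A, m0 b (n :: s) ^ 2 := Finset.sum_nonneg fun _ _ => sq_nonneg _
    rw [← Real.sq_sqrt h0]
    exact pow_le_pow_left₀ (Real.sqrt_nonneg _) h 2
  · have h1 := m0_le h₁ s
    rw [h₁.hu.bad s hs] at h1
    have h2 := h₁.eq s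
    rw [h₁.hu.bad s hs, h₁.hv.bad s hs] at h2
    have h3 := m0_nonneg b s
    linarith
  · have h : Real.sqrt (∑ n ∈ A, (m0 b (n :: s) - b (n :: s)) ^ 2) + b s ≤ m0 b s := by
      refine le_m0 hb fun u v h => ?_
      have h4 : Real.sqrt (∑ n ∈ A, (m0 b (n :: s) - b (n :: s)) ^ 2) ≤ v s := by
        refine (Real.sqrt_le_sqrt ?_).trans_eq (Real.sqrt_sq (h.hv.nonneg s))
        refine le_trans (Finset.sum_le_sum fun n _ => ?_) (h.hv.sum_le s A)
        refine pow_le_pow_left₀ (hv0 _) ?_ 2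
        have := m0_le h (n :: s)
        have := h.eq (n :: s)
        linarith
      have := h.eq s
      linarith
    have h0 : 0 ≤ ∑ n ∈ A, (m0 b (n :: s) - b (n :: s)) ^ 2 :=
      Finset.sum_nonneg fun _ _ => sq_nonneg _
    rw [← Real.sq_sqrt h0]
    exact pow_le_pow_left₀ (Real.sqrt_nonneg _) (by linarith) 2

/-- A finite set of nodes closed under parents and containing the root. -/
structure Sub (S : Finset (List ℕ)) : Prop where
  root : [] ∈ S
  par : ∀ n s, n :: s ∈ S → s ∈ S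

/-- Truncation of a cone element. -/
lemma D.trunc {u : List ℕ → ℝ} (hu : D u) {S : Finset (List ℕ)} (hS : Sub S) :
    D (fun s => if s ∈ S then u s else 0) := by
  refine ⟨fun s => ?_, fun s hs => ?_, fun s A => ?_⟩
  · split_ifs
    · exact hu.nonneg s
    · exact le_rfl
  · split_ifs
    · exact hu.bad s hs
    · rfl
  · by_cases h : s ∈ S
    · rw [if_pos h]
      refine le_trans (Finset.sum_le_sum fun n _ => ?_) (hu.sum_le s A)
      by_cases h' : n :: s ∈ S
      · rw [if_pos h']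
      · rw [if_neg h']
        nlinarith [sq_nonneg (u (n :: s))]
    · rw [if_neg h]
      refine le_of_eq ?_
      rw [Finset.sum_eq_zero]
      · ring
      · intro n _
        rw [if_neg (fun h' => h (hS.par n s h'))]
        ring

lemma m0_off {b : List ℕ → ℝ} (hb : b ∈ XS) {S : Finset (List ℕ)} (hS : Sub S)
    (hbS : ∀ s, s ∉ S → b s = 0) {s : List ℕ} (hs : s ∉ S) : m0 b s = 0 := by
  obtain ⟨u, v, h⟩ := hb
  have h' : Dec b (fun s => if s ∈ S then u s else 0) (fun s => if s ∈ S then v s else 0) := by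
    refine ⟨h.hu.trunc hS, h.hv.trunc hS, fun r => ?_⟩
    by_cases hr : r ∈ S
    · rw [if_pos hr, if_pos hr]; exact h.eq r
    · rw [if_neg hr, if_neg hr, hbS r hr]; ring
  have := m0_le h' s
  simp only [if_neg hs] at this
  exact le_antisymm this (m0_nonneg b s)

/-- Changing one value downwards. -/
lemma D.lower {u : List ℕ → ℝ} (hu : D u) (s : List ℕ) {x : ℝ} (hx0 : 0 ≤ x) (hx : x ≤ u s)
    (hsum : ∀ A : Finset ℕ, ∑ n ∈ A, u (n :: s) ^ 2 ≤ x ^ 2) :
    D (Function.update u s x) := by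
  classical
  have hle : ∀ r, Function.update u s x r ≤ u r := by
    intro r
    by_cases h : r = s
    · subst h; rw [Function.update_self]; exact hx
    · rw [Function.update_of_ne h]
  have h0 : ∀ r, 0 ≤ Function.update u s x r := by
    intro r
    by_cases h : r = s
    · subst h; rw [Function.update_self]; exact hx0
    · rw [Function.update_of_ne h]; exact hu.nonneg r
  refine ⟨h0, fun r hr => ?_, fun r A => ?_⟩
  · have := hle r
    rw [hu.bad r hr] at this
    exact le_antisymm this (h0 r)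
  · have h1 : ∑ n ∈ A, Function.update u s x (n :: r) ^ 2 ≤ ∑ n ∈ A, u (n :: r) ^ 2 :=
      Finset.sum_le_sum fun n _ => pow_le_pow_left₀ (h0 _) (hle _) 2
    by_cases h : r = s
    · subst h
      rw [Function.update_self]
      exact h1.trans (hsum A)
    · rw [Function.update_of_ne h]
      exact h1.trans (hu.sum_le r A)

/-- At every node one of the two components of the minimal decomposition is tight. -/
lemma tight {b : List ℕ → ℝ} (hb : b ∈ XS) {S : Finset (List ℕ)} (hS : Sub S)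
    (hbS : ∀ s, s ∉ S → b s = 0) (s : List ℕ) :
    ∑ n ∈ S.image List.headI, m0 b (n :: s) ^ 2 = m0 b s ^ 2 ∨
    ∑ n ∈ S.image List.headI, (m0 b (n :: s) - b (n :: s)) ^ 2 = (m0 b s - b s) ^ 2 := by
  classical
  by_contra hcon
  push Not at hcon
  obtain ⟨h1, h2⟩ := hcon
  have hd := m0_dec hb
  set I := S.image List.headI with hI
  have hl1 : ∑ n ∈ I, m0 b (n :: s) ^ 2 < m0 b s ^ 2 := lt_of_le_of_ne (hd.hu.sum_le s I) h1
  have hl2 : ∑ n ∈ I, (m0 b (n :: s) - b (n :: s)) ^ 2 < (m0 b s - b s) ^ 2 :=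
    lt_of_le_of_ne (hd.hv.sum_le s I) h2
  set α := Real.sqrt (∑ n ∈ I, m0 b (n :: s) ^ 2) with hα
  set β := Real.sqrt (∑ n ∈ I, (m0 b (n :: s) - b (n :: s)) ^ 2) with hβ
  have hs1 : 0 ≤ ∑ n ∈ I, m0 b (n :: s) ^ 2 := Finset.sum_nonneg fun _ _ => sq_nonneg _
  have hs2 : 0 ≤ ∑ n ∈ I, (m0 b (n :: s) - b (n :: s)) ^ 2 :=
    Finset.sum_nonneg fun _ _ => sq_nonneg _
  have ha : α < m0 b s := by
    rw [hα, ← Real.sqrt_sq (m0_nonneg b s)]
    exact Real.sqrt_lt_sqrt hs1 hl1
  have hb' : β < m0 b s - b s := by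
    rw [hβ, ← Real.sqrt_sq (hd.hv.nonneg s)]
    exact Real.sqrt_lt_sqrt hs2 hl2
  set ε := min (m0 b s - α) (m0 b s - b s - β) with hε
  have hε0 : 0 < ε := lt_min (by linarith) (by linarith)
  have he1 : ε ≤ m0 b s - α := min_le_left _ _
  have he2 : ε ≤ m0 b s - b s - β := min_le_right _ _
  have hα0 : 0 ≤ α := Real.sqrt_nonneg _
  have hβ0 : 0 ≤ β := Real.sqrt_nonneg _
  have hoffS : ∀ n, n ∉ I → n :: s ∉ S := by
    intro n hn h
    exact hn (Finset.mem_image.mpr ⟨n :: s, h, rfl⟩)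
  have hsumu : ∀ A : Finset ℕ, ∑ n ∈ A, m0 b (n :: s) ^ 2 ≤ (m0 b s - ε) ^ 2 := by
    intro A
    have e : ∑ n ∈ A, m0 b (n :: s) ^ 2 ≤ ∑ n ∈ I, m0 b (n :: s) ^ 2 := by
      calc ∑ n ∈ A, m0 b (n :: s) ^ 2 ≤ ∑ n ∈ A ∪ I, m0 b (n :: s) ^ 2 :=
            Finset.sum_le_sum_of_subset_of_nonneg Finset.subset_union_left fun _ _ _ => sq_nonneg _
        _ = ∑ n ∈ I, m0 b (n :: s) ^ 2 := by
            symm
            refine Finset.sum_subset Finset.subset_union_right fun n _ hn => ?_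
            rw [m0_off hb hS hbS (hoffS n hn)]; ring
    refine e.trans ?_
    rw [← Real.sq_sqrt hs1]
    exact pow_le_pow_left₀ hα0 (by linarith) 2
  have hsumv : ∀ A : Finset ℕ, ∑ n ∈ A, (m0 b (n :: s) - b (n :: s)) ^ 2
      ≤ (m0 b s - b s - ε) ^ 2 := by
    intro A
    have e : ∑ n ∈ A, (m0 b (n :: s) - b (n :: s)) ^ 2
        ≤ ∑ n ∈ I, (m0 b (n :: s) - b (n :: s)) ^ 2 := by
      calc ∑ n ∈ A, (m0 b (n :: s) - b (n :: s)) ^ 2
          ≤ ∑ n ∈ A ∪ I, (m0 b (n :: s) - b (n :: s)) ^ 2 :=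
            Finset.sum_le_sum_of_subset_of_nonneg Finset.subset_union_left fun _ _ _ => sq_nonneg _
        _ = ∑ n ∈ I, (m0 b (n :: s) - b (n :: s)) ^ 2 := by
            symm
            refine Finset.sum_subset Finset.subset_union_right fun n _ hn => ?_
            rw [m0_off hb hS hbS (hoffS n hn), hbS _ (hoffS n hn)]; ring
    refine e.trans ?_
    rw [← Real.sq_sqrt hs2]
    exact pow_le_pow_left₀ hβ0 (by linarith) 2
  have hDu := hd.hu.lower s (x := m0 b s - ε) (by linarith) (by linarith) hsumu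
  have hDv := hd.hv.lower s (x := m0 b s - b s - ε) (by linarith) (by linarith) hsumv
  have hdec : Dec b (Function.update (m0 b) s (m0 b s - ε))
      (Function.update (fun s => m0 b s - b s) s (m0 b s - b s - ε)) := by
    refine ⟨hDu, hDv, fun r => ?_⟩
    by_cases h : r = s
    · subst h; rw [Function.update_self, Function.update_self]; ring
    · rw [Function.update_of_ne h, Function.update_of_ne h]; ring
  have := m0_le hdec s
  rw [Function.update_self] at this
  linarith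

end Vale.Agent.P069
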