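import Vale.Agent.P069.NonAUC

/-!
# No equivalent norm on the tree space is asymptotically uniformly convex: conclusion
-/

namespace Vale.Agent.P069

open Filter Topology

/-- One step up the tree. -/
lemma no_auc_step {M : X → ℝ} (hadd : ∀ x y, M (x + y) ≤ M x + M y)
    (hsm : ∀ (c : ℝ) (x : X), M (c • x) = |c| * M x) {a b : ℝ} (ha : 0 < a) (hb : 0 < b)
    (hab : ∀ x, a * ‖x‖ ≤ M x ∧ M x ≤ b * ‖x‖) {δ : ℝ} (hδ : 0 < δ)
    (hmod : (δ : EReal) < aucMod M (a / (2 * b))) {t : List ℕ} (hg : ∀ n, Good (n :: t)) :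
    ∃ n, M (pv t) + a * δ / 2 ≤ M (pv (n :: t)) := by
  have ht : Good t := (hg 0).tail
  set m := M (pv t) with hm
  have hma : a ≤ m := by
    have := (hab (pv t)).1
    have := pv_norm_ge ht
    nlinarith
  have hmb : m ≤ b := by
    have := (hab (pv t)).2
    have := pv_norm_le ht
    nlinarith
  have hm0 : 0 < m := lt_of_lt_of_le ha hma
  set x := m⁻¹ • pv t with hx
  have hx1 : M x = 1 := by
    rw [hx, hsm, abs_of_pos (inv_pos.mpr hm0), ← hm, inv_mul_cancel₀ hm0.ne']
  have h1 : (δ : EReal) < ⨆ (F : Submodule ℝ X) (_ : IsCof F),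
      ⨅ (y : X) (_ : y ∈ F ∧ M y = 1), ((M (x + (a / (2 * b)) • y) - 1 : ℝ) : EReal) :=
    lt_of_lt_of_le hmod (iInf₂_le x hx1)
  obtain ⟨F, h2⟩ := lt_iSup_iff.mp h1
  obtain ⟨hF, h3⟩ := lt_iSup_iff.mp h2
  have hη : 0 < min (a / (2 * b)) (a * δ / (2 * b)) := by positivity
  obtain ⟨n, y, hyF, hy⟩ := near_cof hg hF hη
  refine ⟨n, ?_⟩
  have hneg : ∀ z, M (-z) = M z := by
    intro z
    have := hsm (-1) z
    rwa [neg_one_smul, abs_neg, abs_one, one_mul] at this
  have hd1 : M (st t n - y) ≤ b * min (a / (2 * b)) (a * δ / (2 * b)) :=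
    ((hab _).2).trans (mul_le_mul_of_nonneg_left hy.le hb.le)
  have hd2 : M (st t n - y) ≤ a / 2 := by
    refine hd1.trans ((mul_le_mul_of_nonneg_left (min_le_left _ _) hb.le).trans_eq ?_)
    field_simp
  have hd3 : M (st t n - y) ≤ a * δ / 2 := by
    refine hd1.trans ((mul_le_mul_of_nonneg_left (min_le_right _ _) hb.le).trans_eq ?_)
    field_simp
  have hst : a ≤ M (st t n) := by
    have := (hab (st t n)).1
    have := st_norm_ge (hg n)
    nlinarith
  have hMy : a / 2 ≤ M y := by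
    have h := hadd (st t n - y) y
    rw [sub_add_cancel] at h
    linarith
  have hMy0 : 0 < M y := by linarith
  set y' := (M y)⁻¹ • y with hy'
  have hy'1 : M y' = 1 := by
    rw [hy', hsm, abs_of_pos (inv_pos.mpr hMy0), inv_mul_cancel₀ hMy0.ne']
  have hy'F : y' ∈ F := F.smul_mem _ hyF
  have h4 : (δ : EReal) < ((M (x + (a / (2 * b)) • y') - 1 : ℝ) : EReal) :=
    lt_of_lt_of_le h3 (iInf₂_le y' ⟨hy'F, hy'1⟩)
  have h5 : δ < M (x + (a / (2 * b)) • y') - 1 := EReal.coe_lt_coe_iff.mp h4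
  set t₀ := a / (2 * b) with ht₀
  have ht₀0 : 0 < t₀ := by positivity
  set τ := M y / m with hτ
  have hτ0 : 0 < τ := div_pos hMy0 hm0
  have hτt : t₀ ≤ τ := by
    rw [ht₀, hτ, div_le_div_iff₀ (by positivity) hm0]
    nlinarith
  set l := t₀ / τ with hl
  have hl0 : 0 < l := div_pos ht₀0 hτ0
  have hl1 : l ≤ 1 := (div_le_one hτ0).mpr hτt
  have hlτ : l * τ = t₀ := by rw [hl, div_mul_cancel₀ _ hτ0.ne']
  have e1 : x + t₀ • y' = (1 - l) • x + l • (x + τ • y') := by
    rw [smul_add, smul_smul l τ y', hlτ, sub_smul, one_smul]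
    abel
  have h6 : M (x + t₀ • y') ≤ (1 - l) + l * M (x + τ • y') := by
    rw [e1]
    refine (hadd _ _).trans ?_
    rw [hsm (1 - l) x, hsm l (x + τ • y'), hx1, abs_of_nonneg (by linarith), abs_of_pos hl0,
      mul_one]
  have h7 : δ ≤ M (x + τ • y') - 1 := by
    by_contra hc
    push Not at hc
    have : l * (M (x + τ • y') - 1) ≤ δ := by
      by_cases h0 : 0 ≤ M (x + τ • y') - 1
      · nlinarith
      · push Not at h0
        nlinarith
    nlinarith
  have e2 : m • (x + τ • y') = pv t + y := by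
    rw [smul_add, hx, hy', smul_smul, smul_smul, smul_smul, mul_inv_cancel₀ hm0.ne', one_smul]
    have : m * τ * (M y)⁻¹ = 1 := by
      rw [hτ]; field_simp
    rw [this, one_smul]
  have h8 : m * (1 + δ) ≤ M (pv t + y) := by
    rw [← e2, hsm, abs_of_pos hm0]
    exact mul_le_mul_of_nonneg_left (by linarith) hm0.le
  have e3 : pv t + y = pv (n :: t) + -(st t n - y) := by
    unfold st; abel
  have h9 : M (pv t + y) ≤ M (pv (n :: t)) + M (st t n - y) := by
    rw [e3, ← hneg (st t n - y)]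
    exact hadd _ _
  nlinarith

/-- No equivalent norm on the tree space is asymptotically uniformly convex. -/
theorem no_auc {M : X → ℝ} (hM : IsEquivNorm M) : ¬ AUC M := by
  obtain ⟨hadd, hsm, a, b, ha, hb, hab⟩ := hM
  intro hA
  have h0 := hA (a / (2 * b)) (by positivity)
  obtain ⟨δ, hδ0, hδ1⟩ := EReal.lt_iff_exists_real_btwn.mp h0
  have hδ : 0 < δ := by exact_mod_cast hδ0
  obtain ⟨k, hk⟩ := exists_nat_gt (2 * b / (a * δ))
  have key : ∀ j : ℕ, j ≤ k → ∃ t : List ℕ, t.length = j + 1 ∧ (∀ h : t ≠ [], t.getLast h = k) ∧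
      Good t ∧ (j : ℝ) * (a * δ / 2) ≤ M (pv t) := by
    intro j
    induction j with
    | zero =>
      intro _
      refine ⟨[k], rfl, fun h => rfl, good_single k, ?_⟩
      rw [Nat.cast_zero, zero_mul]
      have := (hab (pv [k])).1
      have := norm_nonneg (pv [k])
      nlinarith
    | succ j ih =>
      intro hj
      obtain ⟨t, hl, hlast, hgood, hM⟩ := ih (by omega)
      have hne : t ≠ [] := by
        intro h; rw [h] at hl; simp at hl
      have hlast' := hlast hne
      have hg : ∀ n, Good (n :: t) := by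
        intro n h
        rw [List.getLast_cons hne, List.length_cons, hlast']
        omega
      obtain ⟨n, hn⟩ := no_auc_step hadd hsm ha hb hab hδ hδ1 hg
      refine ⟨n :: t, by rw [List.length_cons, hl], fun h => ?_, hg n, ?_⟩
      · rw [List.getLast_cons hne]; exact hlast'
      · push_cast
        linarith
  obtain ⟨t, -, -, hgood, hM⟩ := key k le_rfl
  have h1 := (hab (pv t)).2
  have h2 := pv_norm_le hgood
  have h3 : 2 * b < k * (a * δ) := by
    rwa [div_lt_iff₀ (by positivity)] at hk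
  nlinarith

end Vale.Agent.P069
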