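import Vale.Agent.P069.Glue
import Vale.Agent.P069.Defs

/-!
# No equivalent norm on the tree space is asymptotically uniformly convex
-/

namespace Vale.Agent.P069

open Filter Topology

open Classical in
/-- The path vector of `t` (zero if `t` is not admissible). -/
noncomputable def pv (t : List ℕ) : X :=
  if ht : Good t then mkX (pth t) ⟨pth t, fun _ => 0, D.pth ht, D.zero, fun s => by simp⟩ else 0

lemma fn_pv {t : List ℕ} (ht : Good t) : fn (pv t) = pth t := by
  unfold pv; rw [dif_pos ht]; rfl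

lemma pv_norm_le {t : List ℕ} (ht : Good t) : ‖pv t‖ ≤ 1 := by
  rw [norm_def, fn_pv ht]
  have h := NN_le (b := pth t) (u := pth t) (v := fun _ => 0) ⟨D.pth ht, D.zero, fun s => by simp⟩
  rw [pth_nil, add_zero] at h
  exact h

lemma pv_norm_ge {t : List ℕ} (ht : Good t) : 1 ≤ ‖pv t‖ := by
  rw [norm_def, fn_pv ht]
  have h := abs_le_NN (fn_mem (pv t)) []
  rw [fn_pv ht, pth_nil, abs_one] at h
  exact h

/-- The unit vector at `n :: t`. -/
noncomputable def st (t : List ℕ) (n : ℕ) : X := pv (n :: t) - pv t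

lemma fn_st {t : List ℕ} {n : ℕ} (hn : Good (n :: t)) (s : List ℕ) :
    fn (st t n) s = if s = n :: t then 1 else 0 := by
  classical
  unfold st
  rw [map_sub, Pi.sub_apply, fn_pv hn, fn_pv hn.tail]
  unfold pth
  by_cases h : s = n :: t
  · subst h
    rw [if_pos (List.suffix_refl _), if_neg (not_cons_suffix n t), if_pos rfl, sub_zero]
  · rw [if_neg h]
    by_cases h' : s <:+ t
    · rw [if_pos h', if_pos (h'.trans (List.suffix_cons n t)), sub_self]
    · rw [if_neg h', if_neg, sub_self]
      intro h''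
      rcases List.suffix_cons_iff.mp h'' with h3 | h3
      · exact h h3
      · exact h' h3

lemma st_norm_ge {t : List ℕ} {n : ℕ} (hn : Good (n :: t)) : 1 ≤ ‖st t n‖ := by
  rw [norm_def]
  have h := abs_le_NN (fn_mem (st t n)) (n :: t)
  rw [fn_st hn, if_pos rfl, abs_one] at h
  exact h

/-- The upper `ℓ_2` estimate for the unit vectors below `t`. -/
lemma st_sum_le {t : List ℕ} (hg : ∀ n, Good (n :: t)) (A : Finset ℕ) (a : ℕ → ℝ) :
    ‖∑ n ∈ A, a n • st t n‖ ≤ 2 * Real.sqrt (∑ n ∈ A, a n ^ 2) := by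
  classical
  have ht : Good t := (hg 0).tail
  set r := Real.sqrt (∑ n ∈ A, a n ^ 2) with hr
  have hs0 : 0 ≤ ∑ n ∈ A, a n ^ 2 := Finset.sum_nonneg fun _ _ => sq_nonneg _
  have hr2 : r ^ 2 = ∑ n ∈ A, a n ^ 2 := Real.sq_sqrt hs0
  have hD : ∀ c : ℕ → ℝ, (∀ n, 0 ≤ c n) → (∀ n, c n ^ 2 ≤ a n ^ 2) →
      D (glue t (↑A : Set ℕ) (fun n s => c n * pth (n :: t) s) r) := by
    intro c hc hca
    refine D.glue ht (fun n _ => (D.pth (hg n)).smul (hc n)) (Real.sqrt_nonneg _) fun B hB => ?_
    rw [hr2]
    have hBA : B ⊆ A := fun n hn => by simpa using hB n hn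
    refine le_trans (Finset.sum_le_sum fun n _ => ?_)
      (Finset.sum_le_sum_of_subset_of_nonneg hBA fun _ _ _ => sq_nonneg _)
    rw [pth_self, mul_one]
    exact hca n
  have h1 := hD (fun n => max (a n) 0) (fun n => le_max_right _ _) (fun n => by
    rcases le_total 0 (a n) with h | h
    · rw [max_eq_left h]
    · rw [max_eq_right h]; nlinarith [sq_nonneg (a n)])
  have h2 := hD (fun n => max (-a n) 0) (fun n => le_max_right _ _) (fun n => by
    rcases le_total 0 (-a n) with h | h
    · rw [max_eq_left h]; nlinarith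
    · rw [max_eq_right h]; nlinarith [sq_nonneg (a n)])
  have hdec : Dec (fn (∑ n ∈ A, a n • st t n))
      (glue t (↑A : Set ℕ) (fun n s => max (a n) 0 * pth (n :: t) s) r)
      (glue t (↑A : Set ℕ) (fun n s => max (-a n) 0 * pth (n :: t) s) r) := by
    refine ⟨h1, h2, fun s => ?_⟩
    rw [coe_sum]
    have e0 : ∀ n, fn (a n • st t n) s = a n * (if s = n :: t then 1 else 0) := by
      intro n
      rw [map_smul, Pi.smul_apply, fn_st (hg n), smul_eq_mul]
    simp_rw [e0]
    by_cases hex : ∃ n ∈ (↑A : Set ℕ), n :: t <:+ s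
    · obtain ⟨n, hn, hs⟩ := hex
      rw [glue_in hn hs, glue_in hn hs, Finset.sum_eq_single n]
      · by_cases h : s = n :: t
        · subst h
          rw [if_pos rfl, pth_self, mul_one, mul_one, mul_one]
          rcases le_total 0 (a n) with h | h
          · rw [max_eq_left h, max_eq_right (by linarith)]; ring
          · rw [max_eq_right h, max_eq_left (by linarith)]; ring
        · rw [if_neg h]
          have : pth (n :: t) s = 0 := by
            unfold pth
            rw [if_neg]
            intro h'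
            exact h (h'.eq_of_length (le_antisymm h'.length_le hs.length_le))
          rw [this]; ring
      · intro m _ hm
        rw [if_neg, mul_zero]
        rintro rfl
        exact hm (suffix_unique (List.suffix_refl _) hs)
      · intro h; exact absurd (by simpa using hn) h
    · rw [glue_out hex, glue_out hex, sub_self]
      refine Finset.sum_eq_zero fun n hn => ?_
      rw [if_neg, mul_zero]
      rintro rfl
      exact hex ⟨n, by simpa using hn, List.suffix_refl _⟩
  have h3 := NN_le hdec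
  rw [glue_root, glue_root] at h3
  rw [norm_def]
  linarith

/-- The unit vectors below `t` tend weakly to zero. -/
lemma st_weak {t : List ℕ} (hg : ∀ n, Good (n :: t)) (f : X →L[ℝ] ℝ) :
    Tendsto (fun n => f (st t n)) atTop (𝓝 0) := by
  have hb : ∀ A : Finset ℕ, ∑ n ∈ A, f (st t n) ^ 2 ≤ 4 * ‖f‖ ^ 2 := by
    intro A
    have e : f (∑ n ∈ A, f (st t n) • st t n) = ∑ n ∈ A, f (st t n) ^ 2 := by
      rw [map_sum]
      refine Finset.sum_congr rfl fun n _ => ?_
      rw [map_smul, smul_eq_mul]; ring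
    have h1 : ∑ n ∈ A, f (st t n) ^ 2 ≤ ‖f‖ * (2 * Real.sqrt (∑ n ∈ A, f (st t n) ^ 2)) := by
      rw [← e]
      refine (le_abs_self _).trans ?_
      rw [← Real.norm_eq_abs]
      refine (f.le_opNorm _).trans ?_
      have := st_sum_le hg A (fun n => f (st t n))
      rw [e]
      exact mul_le_mul_of_nonneg_left this (norm_nonneg f)
    have h0 : 0 ≤ ∑ n ∈ A, f (st t n) ^ 2 := Finset.sum_nonneg fun _ _ => sq_nonneg _
    set q := Real.sqrt (∑ n ∈ A, f (st t n) ^ 2) with hq
    have hq2 : q ^ 2 = ∑ n ∈ A, f (st t n) ^ 2 := Real.sq_sqrt h0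
    have hq0 : 0 ≤ q := Real.sqrt_nonneg _
    rw [← hq2] at h1 ⊢
    by_cases hz : q = 0
    · rw [hz]; nlinarith [sq_nonneg ‖f‖]
    · have hpos : 0 < q := lt_of_le_of_ne hq0 (Ne.symm hz)
      have h2 : q ≤ 2 * ‖f‖ := by
        by_contra hc
        push Not at hc
        nlinarith
      nlinarith [norm_nonneg f]
  have hs : Summable fun n => f (st t n) ^ 2 :=
    summable_of_sum_le (fun n => sq_nonneg _) hb
  have h2 := hs.tendsto_atTop_zero
  have h3 : Tendsto (fun n => Real.sqrt (f (st t n) ^ 2)) atTop (𝓝 (Real.sqrt 0)) :=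
    (Real.continuous_sqrt.tendsto 0).comp h2
  simp_rw [Real.sqrt_sq_eq_abs, Real.sqrt_zero] at h3
  exact (tendsto_zero_iff_abs_tendsto_zero _).mpr h3

/-- Almost membership in a subspace of finite codimension. -/
lemma near_cof {t : List ℕ} (hg : ∀ n, Good (n :: t)) {F : Submodule ℝ X} (hF : IsCof F) {η : ℝ}
    (hη : 0 < η) : ∃ n, ∃ y ∈ F, ‖st t n - y‖ < η := by
  haveI : IsClosed (F : Set X) := hF.1
  haveI := hF.2
  let Q := X ⧸ F
  let B := Module.finBasis ℝ Q
  have hz : Tendsto (fun n => F.mkQL (st t n)) atTop (𝓝 (0 : Q)) := by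
    have e : ∀ n, F.mkQL (st t n) = ∑ i, (B.coord i) (F.mkQL (st t n)) • B i := by
      intro n
      exact (B.sum_repr _).symm
    have e' : (fun n => F.mkQL (st t n))
        = fun n => ∑ i, (B.coord i) (F.mkQL (st t n)) • B i := funext e
    rw [e']
    have e0 : (0 : Q) = ∑ i, (0 : ℝ) • B i := by simp
    rw [e0]
    refine tendsto_finset_sum _ fun i _ => ?_
    refine Tendsto.smul_const ?_ _
    exact st_weak hg ((LinearMap.toContinuousLinearMap (B.coord i)).comp F.mkQL)
  have hn := (tendsto_zero_iff_norm_tendsto_zero.mp hz).eventually (gt_mem_nhds (half_pos hη))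
  obtain ⟨n, hn⟩ := hn.exists
  obtain ⟨w, hw1, hw2⟩ := Submodule.Quotient.norm_mk_lt (F.mkQL (st t n)) (half_pos hη)
  refine ⟨n, st t n - w, ?_, ?_⟩
  · have : (Submodule.Quotient.mk (st t n) : X ⧸ F) = Submodule.Quotient.mk w := hw1.symm
    exact (Submodule.Quotient.eq F).mp this
  · rw [sub_sub_cancel]
    linarith

end Vale.Agent.P069
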