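import Vale.Agent.P069.Infinite

/-!
# Towards reflexivity: the `ℓ_2` structure below a node
-/

namespace Vale.Agent.P069

open Filter Topology

lemma hT (t : List ℕ) : ∀ n s, s ∈ {s | t <:+ s} → n :: s ∈ {s | t <:+ s} := by
  intro n s h
  exact List.IsSuffix.trans h (List.suffix_cons n s)

lemma hTB (t : List ℕ) (B : Set ℕ) :
    ∀ n s, s ∈ {s | ∃ n ∈ B, n :: t <:+ s} → n :: s ∈ {s | ∃ n ∈ B, n :: t <:+ s} := by
  rintro n s ⟨m, hm, h⟩
  exact ⟨m, hm, h.trans (List.suffix_cons n s)⟩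

/-- Restriction to the subtree of `t`. -/
noncomputable def RT (t : List ℕ) : X →L[ℝ] X := R {s | t <:+ s} (hT t)

/-- Restriction to the subtrees of the children `n ∈ B` of `t`. -/
noncomputable def RB (t : List ℕ) (B : Set ℕ) : X →L[ℝ] X :=
  R {s | ∃ n ∈ B, n :: t <:+ s} (hTB t B)

lemma RT_in {t s : List ℕ} (h : t <:+ s) (b : X) : fn (RT t b) s = fn b s := by
  unfold RT
  rw [fn_R]
  unfold res
  exact if_pos h

lemma RT_out {t s : List ℕ} (h : ¬ t <:+ s) (b : X) : fn (RT t b) s = 0 := by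
  unfold RT
  rw [fn_R]
  unfold res
  exact if_neg h

lemma RB_in {t s : List ℕ} {B : Set ℕ} (h : ∃ n ∈ B, n :: t <:+ s) (b : X) :
    fn (RB t B b) s = fn b s := by
  unfold RB
  rw [fn_R]
  unfold res
  exact if_pos h

lemma RB_out {t s : List ℕ} {B : Set ℕ} (h : ¬ ∃ n ∈ B, n :: t <:+ s) (b : X) :
    fn (RB t B b) s = 0 := by
  unfold RB
  rw [fn_R]
  unfold res
  exact if_neg h

lemma RT_norm_le (t : List ℕ) (b : X) : ‖RT t b‖ ≤ 2 * ‖b‖ := R_norm_le _ _ b

lemma RB_norm_le (t : List ℕ) (B : Set ℕ) (b : X) : ‖RB t B b‖ ≤ 2 * ‖b‖ := R_norm_le _ _ b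

lemma RT_RT (t : List ℕ) (b : X) : RT t (RT t b) = RT t b := by
  refine fn_inj (funext fun s => ?_)
  by_cases h : t <:+ s
  · rw [RT_in h]
  · rw [RT_out h, RT_out h]

/-- Near optimal decompositions. -/
lemma dec_two (b : X) : ∃ u v, Dec (fn b) u v ∧ u [] + v [] ≤ 2 * ‖b‖ := by
  by_cases h : b = 0
  · subst h
    refine ⟨_, _, ⟨D.zero, D.zero, fun s => ?_⟩, ?_⟩
    · rw [map_zero]; simp
    · simp
  · have hp : 0 < ‖b‖ := norm_pos_iff.mpr h
    obtain ⟨u, v, hd, hlt⟩ := exists_dec (fn_mem b) (r := 2 * ‖b‖) (by rw [← norm_def]; linarith)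
    exact ⟨u, v, hd, hlt.le⟩

/-- Lower `ℓ_2` estimate. -/
lemma lower_l2 {t : List ℕ} (ht : Good t) (y : X) (A : Finset ℕ) :
    ∑ n ∈ A, ‖RT (n :: t) y‖ ^ 2 ≤ 16 * ‖y‖ ^ 2 := by
  obtain ⟨u, v, hd, hc⟩ := dec_two y
  have hn : ∀ n, ‖RT (n :: t) y‖ ≤ 2 * (u (n :: t) + v (n :: t)) := by
    intro n
    have hr : 0 ≤ u (n :: t) + v (n :: t) := add_nonneg (hd.hu.nonneg _) (hd.hv.nonneg _)
    have hg : ∀ p : List ℕ → ℝ, D p → p (n :: t) ≤ u (n :: t) + v (n :: t) →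
        D (glue t ({n} : Set ℕ) (fun _ => p) (u (n :: t) + v (n :: t))) := by
      intro p hp hle
      refine D.glue ht (fun _ _ => hp) hr fun B hB => ?_
      have hB' : B ⊆ {n} := fun m hm => by
        have := hB m hm
        simpa using this
      refine le_trans (Finset.sum_le_sum_of_subset_of_nonneg hB' fun _ _ _ => sq_nonneg _) ?_
      rw [Finset.sum_singleton]
      exact pow_le_pow_left₀ (hp.nonneg _) hle 2
    have h' : Dec (fn (RT (n :: t) y)) _ _ :=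
      ⟨hg u hd.hu (by linarith [hd.hv.nonneg (n :: t)]),
        hg v hd.hv (by linarith [hd.hu.nonneg (n :: t)]), fun s => by
        by_cases hs : n :: t <:+ s
        · rw [RT_in hs, glue_in (Set.mem_singleton n) hs, glue_in (Set.mem_singleton n) hs]
          exact hd.eq s
        · have hno : ¬ ∃ m ∈ ({n} : Set ℕ), m :: t <:+ s := by
            rintro ⟨m, hm, h⟩
            rw [Set.mem_singleton_iff] at hm
            exact hs (hm ▸ h)
          rw [RT_out hs, glue_out hno, glue_out hno, sub_self]⟩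
    have h2 := NN_le h'
    rw [glue_root, glue_root] at h2
    rw [norm_def]
    linarith
  have h1 : ∑ n ∈ A, ‖RT (n :: t) y‖ ^ 2 ≤ 4 * ∑ n ∈ A, (u (n :: t) + v (n :: t)) ^ 2 := by
    rw [Finset.mul_sum]
    refine Finset.sum_le_sum fun n _ => ?_
    have := pow_le_pow_left₀ (norm_nonneg _) (hn n) 2
    nlinarith
  have h2 := (hd.hu.add hd.hv).sum_le t A
  have h3 := (hd.hu.add hd.hv).le_root t
  have h4 := (hd.hu.add hd.hv).nonneg t
  have h5 : (u t + v t) ^ 2 ≤ (2 * ‖y‖) ^ 2 := pow_le_pow_left₀ h4 (h3.trans hc) 2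
  nlinarith

/-- Upper `ℓ_2` estimate. -/
lemma upper_l2 {t : List ℕ} (ht : Good t) (y : ℕ → X) (A : Finset ℕ)
    (hy : ∀ n s, ¬ n :: t <:+ s → fn (y n) s = 0) :
    ‖∑ n ∈ A, y n‖ ≤ 2 * Real.sqrt (∑ n ∈ A, (2 * ‖y n‖) ^ 2) := by
  classical
  choose p q hpq hc using fun n => dec_two (y n)
  set r := Real.sqrt (∑ n ∈ A, (2 * ‖y n‖) ^ 2) with hr
  have hs0 : 0 ≤ ∑ n ∈ A, (2 * ‖y n‖) ^ 2 := Finset.sum_nonneg fun _ _ => sq_nonneg _
  have hr2 : r ^ 2 = ∑ n ∈ A, (2 * ‖y n‖) ^ 2 := Real.sq_sqrt hs0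
  have hg : ∀ w : ℕ → List ℕ → ℝ, (∀ n, D (w n)) → (∀ n, w n [] ≤ 2 * ‖y n‖) →
      D (glue t (↑A : Set ℕ) w r) := by
    intro w hw hwc
    refine D.glue ht (fun n _ => hw n) (Real.sqrt_nonneg _) fun B hB => ?_
    rw [hr2]
    have hBA : B ⊆ A := fun n hn => by simpa using hB n hn
    refine le_trans (Finset.sum_le_sum fun n _ => ?_)
      (Finset.sum_le_sum_of_subset_of_nonneg hBA fun _ _ _ => sq_nonneg _)
    exact pow_le_pow_left₀ ((hw n).nonneg _) (((hw n).le_root _).trans (hwc n)) 2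
  have hdec : Dec (fn (∑ n ∈ A, y n)) (glue t (↑A : Set ℕ) p r) (glue t (↑A : Set ℕ) q r) := by
    refine ⟨hg p (fun n => (hpq n).hu) fun n => by linarith [hc n, (hpq n).hv.nonneg []],
      hg q (fun n => (hpq n).hv) fun n => by linarith [hc n, (hpq n).hu.nonneg []], fun s => ?_⟩
    rw [coe_sum]
    by_cases hex : ∃ n ∈ (↑A : Set ℕ), n :: t <:+ s
    · obtain ⟨n, hn, hs⟩ := hex
      rw [glue_in hn hs, glue_in hn hs, Finset.sum_eq_single n]
      · exact (hpq n).eq s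
      · intro m _ hm
        exact hy m s fun h => hm (suffix_unique h hs)
      · intro h; exact absurd (by simpa using hn) h
    · rw [glue_out hex, glue_out hex, sub_self]
      refine Finset.sum_eq_zero fun n hn => ?_
      exact hy n s fun h => hex ⟨n, by simpa using hn, h⟩
  have h3 := NN_le hdec
  rw [glue_root, glue_root] at h3
  rw [norm_def]
  linarith

end Vale.Agent.P069
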