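import Vale.Agent.P069.Refl1

/-!
# Towards reflexivity: the functionals below a node
-/

namespace Vale.Agent.P069

open Filter Topology

/-- Norms of the restricted functionals are square summable. -/
lemma funct_sum {t : List ℕ} (ht : Good t) (f : X →L[ℝ] ℝ) (A : Finset ℕ) :
    ∑ n ∈ A, ‖f.comp (RT (n :: t))‖ ^ 2 ≤ 1024 * ‖f‖ ^ 2 := by
  have hb : ∀ n : ℕ, ∃ b : X, ‖b‖ ≤ 1 ∧
      ‖f.comp (RT (n :: t))‖ ≤ 2 * |f (RT (n :: t) b)| := by
    intro n
    by_cases h : ‖f.comp (RT (n :: t))‖ = 0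
    · exact ⟨0, by simp, by rw [h]; positivity⟩
    · have hp : 0 < ‖f.comp (RT (n :: t))‖ := lt_of_le_of_ne (norm_nonneg _) (Ne.symm h)
      obtain ⟨x, hx1, hx2⟩ := (f.comp (RT (n :: t))).exists_lt_apply_of_lt_opNorm
        (half_lt_self hp)
      refine ⟨x, hx1.le, ?_⟩
      rw [ContinuousLinearMap.comp_apply, Real.norm_eq_abs] at hx2
      linarith
  choose b hb1 hb2 using hb
  set g : ℕ → ℝ := fun n => f (RT (n :: t) (b n)) with hg
  have hup := upper_l2 ht (fun n => g n • RT (n :: t) (b n)) A (fun n s hs => by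
    show fn (g n • RT (n :: t) (b n)) s = 0
    rw [map_smul, Pi.smul_apply, RT_out hs, smul_zero])
  have hn : ∀ n, ‖g n • RT (n :: t) (b n)‖ ≤ 2 * |g n| := by
    intro n
    rw [norm_smul, Real.norm_eq_abs]
    have h1 := RT_norm_le (n :: t) (b n)
    have h2 := hb1 n
    nlinarith [abs_nonneg (g n)]
  have h0 : 0 ≤ ∑ n ∈ A, g n ^ 2 := Finset.sum_nonneg fun _ _ => sq_nonneg _
  set q := Real.sqrt (∑ n ∈ A, g n ^ 2) with hq
  have hq0 : 0 ≤ q := Real.sqrt_nonneg _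
  have hq2 : q ^ 2 = ∑ n ∈ A, g n ^ 2 := Real.sq_sqrt h0
  have h1 : Real.sqrt (∑ n ∈ A, (2 * ‖g n • RT (n :: t) (b n)‖) ^ 2) ≤ 4 * q := by
    have e : 4 * q = Real.sqrt (16 * ∑ n ∈ A, g n ^ 2) := by
      rw [← hq2, show (16 : ℝ) * q ^ 2 = (4 * q) ^ 2 by ring, Real.sqrt_sq (by positivity)]
    rw [e]
    refine Real.sqrt_le_sqrt ?_
    rw [Finset.mul_sum]
    refine Finset.sum_le_sum fun n _ => ?_
    have h := hn n
    have h3 : 2 * ‖g n • RT (n :: t) (b n)‖ ≤ 4 * |g n| := by linarith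
    have h4 := pow_le_pow_left₀ (by positivity) h3 2
    have e5 : (4 * |g n|) ^ 2 = 16 * g n ^ 2 := by rw [mul_pow, sq_abs]; norm_num
    rw [e5] at h4
    exact h4
  have e : f (∑ n ∈ A, g n • RT (n :: t) (b n)) = ∑ n ∈ A, g n ^ 2 := by
    rw [map_sum]
    refine Finset.sum_congr rfl fun n _ => ?_
    rw [map_smul, smul_eq_mul]
    show g n * g n = g n ^ 2
    ring
  have h2 : q ^ 2 ≤ ‖f‖ * (8 * q) := by
    rw [hq2, ← e]
    refine (le_abs_self _).trans ?_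
    rw [← Real.norm_eq_abs]
    refine (f.le_opNorm _).trans (mul_le_mul_of_nonneg_left ?_ (norm_nonneg f))
    linarith
  have h3 : q ≤ 8 * ‖f‖ := by
    by_contra hc
    push Not at hc
    have : 0 < q := lt_of_le_of_lt (by positivity) hc
    nlinarith
  have h4 : ∑ n ∈ A, ‖f.comp (RT (n :: t))‖ ^ 2 ≤ 4 * ∑ n ∈ A, g n ^ 2 := by
    rw [Finset.mul_sum]
    refine Finset.sum_le_sum fun n _ => ?_
    have h := pow_le_pow_left₀ (norm_nonneg _) (hb2 n) 2
    rw [mul_pow, sq_abs] at h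
    show _ ≤ 4 * (f (RT (n :: t) (b n))) ^ 2
    linarith
  have h5 : q ^ 2 ≤ (8 * ‖f‖) ^ 2 := pow_le_pow_left₀ hq0 h3 2
  nlinarith [norm_nonneg f]

/-- The tails below a node are small in norm. -/
lemma funct_tail {t : List ℕ} (ht : Good t) (f : X →L[ℝ] ℝ) {ε : ℝ} (hε : 0 < ε) :
    ∃ B : Finset ℕ, ∀ y : X, |f (RB t ((↑B : Set ℕ)ᶜ) y)| ≤ ε * ‖y‖ := by
  classical
  have hsum : Summable fun n => ‖f.comp (RT (n :: t))‖ ^ 2 :=
    summable_of_sum_le (fun n => sq_nonneg _) (funct_sum ht f)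
  obtain ⟨B, hB⟩ := summable_iff_vanishing_norm.mp hsum ((ε / 4) ^ 2) (by positivity)
  refine ⟨B, fun y => ?_⟩
  refine le_of_forall_pos_le_add fun η hη => ?_
  obtain ⟨S, hS, hyS⟩ := density y (ε := η / (2 * ‖f‖ + 1)) (by positivity)
  set y' := P S hS y with hy'
  set A : Finset ℕ := (S.biUnion fun s => s.toFinset) \ B with hA
  have hAB : ∀ n ∈ A, n ∉ B := fun n hn => (Finset.mem_sdiff.mp hn).2
  have hdec : RB t ((↑B : Set ℕ)ᶜ) y' = ∑ n ∈ A, RT (n :: t) y' := by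
    refine fn_inj (funext fun s => ?_)
    rw [coe_sum]
    by_cases hex : ∃ n ∈ ((↑B : Set ℕ)ᶜ), n :: t <:+ s
    · rw [RB_in hex]
      obtain ⟨n, hn, hs⟩ := hex
      by_cases hsS : s ∈ S
      · have hnA : n ∈ A := by
          refine Finset.mem_sdiff.mpr ⟨Finset.mem_biUnion.mpr ⟨s, hsS, ?_⟩, by simpa using hn⟩
          rw [List.mem_toFinset]
          exact hs.subset (List.mem_cons_self)
        rw [Finset.sum_eq_single_of_mem n hnA, RT_in hs]
        intro m _ hm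
        exact RT_out (fun h => hm (suffix_unique h hs)) _
      · rw [fn_P_out hS y hsS]
        symm
        refine Finset.sum_eq_zero fun m _ => ?_
        by_cases hm : m :: t <:+ s
        · rw [RT_in hm, fn_P_out hS y hsS]
        · rw [RT_out hm]
    · rw [RB_out hex]
      symm
      refine Finset.sum_eq_zero fun m hm => RT_out (fun h => hex ⟨m, ?_, h⟩) _
      simpa using hAB m hm
  have h1 : |f (RB t ((↑B : Set ℕ)ᶜ) y')| ≤ ε * ‖y'‖ := by
    rw [hdec, map_sum]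
    refine (Finset.abs_sum_le_sum_abs _ _).trans ?_
    have h2 : ∀ n, |f (RT (n :: t) y')| ≤ ‖f.comp (RT (n :: t))‖ * ‖RT (n :: t) y'‖ := by
      intro n
      have := (f.comp (RT (n :: t))).le_opNorm (RT (n :: t) y')
      rwa [ContinuousLinearMap.comp_apply, RT_RT, Real.norm_eq_abs] at this
    refine (Finset.sum_le_sum fun n _ => h2 n).trans ?_
    refine abs_le_of_sq_le_sq' ?_ (by positivity) |>.2
    refine (Finset.sum_mul_sq_le_sq_mul_sq _ _ _).trans ?_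
    have h3 := hB A (Finset.disjoint_left.mpr fun n hn hnB => hAB n hn hnB)
    rw [Real.norm_eq_abs] at h3
    have h4 := (le_abs_self _).trans h3.le
    have h5 := lower_l2 ht y' A
    calc (∑ n ∈ A, ‖f.comp (RT (n :: t))‖ ^ 2) * ∑ n ∈ A, ‖RT (n :: t) y'‖ ^ 2
        ≤ (ε / 4) ^ 2 * (16 * ‖y'‖ ^ 2) :=
          mul_le_mul h4 h5 (Finset.sum_nonneg fun _ _ => sq_nonneg _) (by positivity)
      _ = (ε * ‖y'‖) ^ 2 := by ring
  have h6 : ‖y'‖ ≤ ‖y‖ := P_norm_le hS y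
  have h7 : |f (RB t ((↑B : Set ℕ)ᶜ) (y - y'))| ≤ η := by
    rw [← Real.norm_eq_abs]
    refine (f.le_opNorm _).trans ?_
    have h8 := RB_norm_le t ((↑B : Set ℕ)ᶜ) (y - y')
    have h9 : ‖f‖ * ‖RB t ((↑B : Set ℕ)ᶜ) (y - y')‖ ≤ ‖f‖ * (2 * (η / (2 * ‖f‖ + 1))) :=
      mul_le_mul_of_nonneg_left (by linarith) (norm_nonneg f)
    refine h9.trans ?_
    rw [mul_div_assoc', mul_div_assoc', div_le_iff₀ (by positivity)]
    nlinarith [norm_nonneg f]
  have e : y = y' + (y - y') := by abel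
  have h10 : f (RB t ((↑B : Set ℕ)ᶜ) y)
      = f (RB t ((↑B : Set ℕ)ᶜ) y') + f (RB t ((↑B : Set ℕ)ᶜ) (y - y')) := by
    rw [← map_add, ← map_add, ← e]
  rw [h10]
  refine (abs_add_le _ _).trans ?_
  nlinarith

end Vale.Agent.P069
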