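import Vale.Agent.P069.Refl2

/-!
# Reflexivity
-/

namespace Vale.Agent.P069

open Filter Topology

/-- The unit vectors. -/
noncomputable def un : List ℕ → X
  | [] => pv []
  | n :: t => st t n

lemma fn_un {t : List ℕ} (ht : Good t) (s : List ℕ) :
    fn (un t) s = if s = t then 1 else 0 := by
  cases t with
  | nil =>
    show fn (pv []) s = _
    rw [fn_pv ht]
    unfold pth
    by_cases h : s = []
    · subst h; simp
    · rw [if_neg h, if_neg]
      intro h'
      exact h (List.suffix_nil.mp h')
  | cons n t => exact fn_st ht s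

lemma bad_zero (b : X) {s : List ℕ} (hs : ¬ Good s) : fn b s = 0 := by
  obtain ⟨u, v, h⟩ := fn_mem b
  rw [h.eq, h.hu.bad s hs, h.hv.bad s hs, sub_self]

/-- Splitting a functional below a node. -/
lemma split_below {t : List ℕ} (ht : Good t) (f : X →L[ℝ] ℝ) (B : Finset ℕ) :
    f.comp (RT t) = f (un t) • ev t + ∑ n ∈ B, f.comp (RT (n :: t))
      + f.comp (RB t ((↑B : Set ℕ)ᶜ)) := by
  classical
  ext y
  have key : RT t y = fn y t • un t + ∑ n ∈ B, RT (n :: t) y + RB t ((↑B : Set ℕ)ᶜ) y := by
    refine fn_inj (funext fun s => ?_)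
    rw [map_add, map_add, Pi.add_apply, Pi.add_apply, coe_sum, map_smul, Pi.smul_apply,
      fn_un ht, smul_eq_mul]
    by_cases hs : t <:+ s
    · rw [RT_in hs]
      by_cases hst : s = t
      · subst hst
        have h1 : ∑ n ∈ B, fn (RT (n :: s) y) s = 0 :=
          Finset.sum_eq_zero fun n _ => RT_out (not_cons_suffix n s) y
        have h2 : fn (RB s ((↑B : Set ℕ)ᶜ) y) s = 0 :=
          RB_out (by rintro ⟨n, -, h⟩; exact not_cons_suffix n s h) y
        rw [h1, h2, if_pos rfl]; ring
      · have hex : ∃ n, n :: t <:+ s := by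
          obtain ⟨p, hp⟩ := hs
          rcases List.eq_nil_or_concat p with rfl | ⟨p', n, rfl⟩
          · exfalso; exact hst hp.symm
          · exact ⟨n, p', by rw [← hp]; simp⟩
        obtain ⟨n, hn⟩ := hex
        rw [if_neg hst, mul_zero, zero_add]
        by_cases hnB : n ∈ B
        · rw [Finset.sum_eq_single_of_mem n hnB, RT_in hn, RB_out, add_zero]
          · rintro ⟨m, hm, h⟩
            have := suffix_unique h hn
            rw [this] at hm
            exact hm (by simpa using hnB)
          · intro m _ hm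
            exact RT_out (fun h => hm (suffix_unique h hn)) _
        · rw [RB_in ⟨n, by simpa using hnB, hn⟩, Finset.sum_eq_zero, zero_add]
          intro m hm
          refine RT_out (fun h => hnB ?_) _
          rw [← suffix_unique h hn]; exact hm
    · rw [RT_out hs]
      have h0 : s ≠ t := fun h => hs (h ▸ List.suffix_refl _)
      have h1 : ∑ n ∈ B, fn (RT (n :: t) y) s = 0 :=
        Finset.sum_eq_zero fun n _ =>
          RT_out (fun h => hs ((List.suffix_cons n t).trans h)) y
      have h2 : fn (RB t ((↑B : Set ℕ)ᶜ) y) s = 0 :=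
        RB_out (by rintro ⟨n, -, h⟩; exact hs ((List.suffix_cons n t).trans h)) y
      rw [h1, h2, if_neg h0]; ring
  rw [ContinuousLinearMap.comp_apply, key, map_add, map_add, map_sum, map_smul]
  simp only [ContinuousLinearMap.add_apply, ContinuousLinearMap.smul_apply,
    ContinuousLinearMap.sum_apply, ContinuousLinearMap.comp_apply, smul_eq_mul, ev_apply]
  ring

/-- Elements of the bidual are determined by the coordinates. -/
lemma bidual_zero (Ψ : (X →L[ℝ] ℝ) →L[ℝ] ℝ) (hΨ : ∀ s, Ψ (ev s) = 0) : Ψ = 0 := by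
  have claim : ∀ t, Good t → ∀ f : X →L[ℝ] ℝ, Ψ (f.comp (RT t)) = 0 := by
    refine wf_ind _ fun t ht ih f => ?_
    have hch : ∀ n, Ψ (f.comp (RT (n :: t))) = 0 := by
      intro n
      by_cases hn : Good (n :: t)
      · exact ih n hn f
      · have : f.comp (RT (n :: t)) = 0 := by
          ext y
          rw [ContinuousLinearMap.comp_apply]
          have : RT (n :: t) y = 0 := by
            refine fn_inj (funext fun s => ?_)
            rw [map_zero, Pi.zero_apply]
            by_cases hs : n :: t <:+ s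
            · exact bad_zero _ (fun hg => hn (good_of_suffix hg hs))
            · exact RT_out hs y
          rw [this, map_zero, ContinuousLinearMap.zero_apply]
        rw [this, map_zero]
    have hle : ∀ ε : ℝ, 0 < ε → |Ψ (f.comp (RT t))| ≤ ‖Ψ‖ * ε := by
      intro ε hε
      obtain ⟨B, hB⟩ := funct_tail ht f hε
      have e : Ψ (f.comp (RT t)) = Ψ (f.comp (RB t ((↑B : Set ℕ)ᶜ))) := by
        rw [split_below ht f B, map_add, map_add, map_smul, hΨ, smul_zero, map_sum,
          Finset.sum_eq_zero fun n _ => hch n, add_zero, zero_add]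
      rw [e, ← Real.norm_eq_abs]
      refine (Ψ.le_opNorm _).trans (mul_le_mul_of_nonneg_left ?_ (norm_nonneg Ψ))
      exact ContinuousLinearMap.opNorm_le_bound _ hε.le fun y => hB y
    by_contra hne
    have hpos : 0 < |Ψ (f.comp (RT t))| := abs_pos.mpr hne
    have h1 := hle (|Ψ (f.comp (RT t))| / (2 * (‖Ψ‖ + 1))) (by positivity)
    rw [mul_div_assoc', le_div_iff₀ (by positivity)] at h1
    nlinarith [norm_nonneg Ψ]
  ext f
  have h := claim [] good_nil f
  have e : f.comp (RT []) = f := by
    ext y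
    rw [ContinuousLinearMap.comp_apply]
    congr 1
    exact fn_inj (funext fun s => RT_in (List.nil_suffix) y)
  rw [e] at h
  rw [h, ContinuousLinearMap.zero_apply]

/-- Coordinates of an element of the bidual: the finite sections are bounded. -/
lemma bidual_sec (Φ : (X →L[ℝ] ℝ) →L[ℝ] ℝ) {S : Finset (List ℕ)} (hS : Sub S) :
    ‖∑ s ∈ S, Φ (ev s) • un s‖ ≤ ‖Φ‖ := by
  obtain ⟨g, hg1, hg2⟩ := exists_dual_vector'' ℝ (∑ s ∈ S, Φ (ev s) • un s)
  have e1 : g.comp (P S hS) = ∑ s ∈ S, g (un s) • ev s := by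
    ext y
    have key : P S hS y = ∑ s ∈ S, fn y s • un s := by
      refine fn_inj (funext fun r => ?_)
      rw [coe_sum]
      have e2 : ∀ s ∈ S, fn (fn y s • un s) r = if r = s then fn y s else 0 := by
        intro s _
        rw [map_smul, Pi.smul_apply, smul_eq_mul]
        by_cases hs : Good s
        · rw [fn_un hs]; split_ifs <;> ring
        · rw [bad_zero y hs]; simp
      rw [Finset.sum_congr rfl e2, Finset.sum_ite_eq S r (fun s => fn y s)]
      by_cases hr : r ∈ S
      · rw [if_pos hr, fn_P_in hS y hr]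
      · rw [if_neg hr, fn_P_out hS y hr]
    rw [ContinuousLinearMap.comp_apply, key, map_sum, ContinuousLinearMap.sum_apply]
    refine Finset.sum_congr rfl fun s _ => ?_
    rw [map_smul, ContinuousLinearMap.smul_apply, ev_apply, smul_eq_mul, smul_eq_mul, mul_comm]
  have e3 : Φ (g.comp (P S hS)) = g (∑ s ∈ S, Φ (ev s) • un s) := by
    rw [e1, map_sum, map_sum]
    refine Finset.sum_congr rfl fun s _ => ?_
    rw [map_smul, map_smul, smul_eq_mul, smul_eq_mul, mul_comm]
  have h1 : ‖g.comp (P S hS)‖ ≤ 1 := by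
    refine ContinuousLinearMap.opNorm_le_bound _ zero_le_one fun y => ?_
    rw [ContinuousLinearMap.comp_apply, one_mul]
    refine (g.le_opNorm _).trans ?_
    have := P_norm_le hS y
    nlinarith [norm_nonneg (P S hS y), norm_nonneg g]
  have h2 : |Φ (g.comp (P S hS))| ≤ ‖Φ‖ := by
    rw [← Real.norm_eq_abs]
    refine (Φ.le_opNorm _).trans ?_
    nlinarith [norm_nonneg Φ]
  rw [e3, hg2] at h2
  exact (le_abs_self _).trans h2

/-- The coordinates of an element of the bidual form an element of the space. -/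
lemma bidual_mem (Φ : (X →L[ℝ] ℝ) →L[ℝ] ℝ) : (fun s => Φ (ev s)) ∈ XS := by
  classical
  choose T hT1 hT2 using exists_sub
  choose u v hd hc using fun S : Finset (List ℕ) => dec_two (∑ s ∈ T S, Φ (ev s) • un s)
  have hbound : ∀ S, u S [] + v S [] ≤ 2 * ‖Φ‖ := fun S =>
    (hc S).trans (mul_le_mul_of_nonneg_left (bidual_sec Φ (hT1 S)) (by norm_num))
  set U : Ultrafilter (Finset (List ℕ)) := Ultrafilter.of atTop with hU
  have hlim : ∀ w : Finset (List ℕ) → List ℕ → ℝ, (∀ S, D (w S)) → (∀ S, w S [] ≤ 2 * ‖Φ‖) →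
      ∃ w' : List ℕ → ℝ, ∀ s, Tendsto (fun S => w S s) U (𝓝 (w' s)) := by
    intro w hw hwb
    have : ∀ s, ∃ a : ℝ, Tendsto (fun S => w S s) U (𝓝 a) := by
      intro s
      obtain ⟨a, -, ha⟩ := (isCompact_Icc (a := (0 : ℝ)) (b := 2 * ‖Φ‖)).ultrafilter_le_nhds
        (U.map fun S => w S s) (by
          rw [le_principal_iff]
          show (fun S => w S s) ⁻¹' Set.Icc 0 (2 * ‖Φ‖) ∈ (U : Filter (Finset (List ℕ)))
          exact Filter.univ_mem' fun S =>
            ⟨(hw S).nonneg s, ((hw S).le_root s).trans (hwb S)⟩)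
      exact ⟨a, ha⟩
    choose w' hw' using this
    exact ⟨w', hw'⟩
  obtain ⟨u', hu'⟩ := hlim u (fun S => (hd S).hu) fun S => by
    linarith [hbound S, (hd S).hv.nonneg []]
  obtain ⟨v', hv'⟩ := hlim v (fun S => (hd S).hv) fun S => by
    linarith [hbound S, (hd S).hu.nonneg []]
  refine ⟨u', v', D.lim (l := (U : Filter (Finset (List ℕ)))) (fun S => (hd S).hu) hu',
    D.lim (l := (U : Filter (Finset (List ℕ)))) (fun S => (hd S).hv) hv', fun s => ?_⟩
  have h1 : Tendsto (fun S => u S s - v S s) U (𝓝 (u' s - v' s)) := (hu' s).sub (hv' s)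
  have h2 : (fun S => u S s - v S s) =ᶠ[(U : Filter (Finset (List ℕ)))] fun _ => Φ (ev s) := by
    have h3 : ∀ᶠ S : Finset (List ℕ) in atTop, s ∈ S :=
      (eventually_ge_atTop {s}).mono fun S hS => hS (Finset.mem_singleton_self s)
    refine (Ultrafilter.of_le atTop (h3.mono fun S hS => ?_) : _)
    show u S s - v S s = Φ (ev s)
    rw [← (hd S).eq s, coe_sum]
    have e2 : ∀ r ∈ T S, fn (Φ (ev r) • un r) s = if s = r then Φ (ev r) else 0 := by
      intro r _
      rw [map_smul, Pi.smul_apply, smul_eq_mul]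
      by_cases hr : Good r
      · rw [fn_un hr]; split_ifs <;> ring
      · have : ev r = 0 := by
          ext y
          rw [ev_apply, bad_zero y hr, ContinuousLinearMap.zero_apply]
        rw [this]; simp
    rw [Finset.sum_congr rfl e2, Finset.sum_ite_eq (T S) s (fun r => Φ (ev r)),
      if_pos (hT2 S hS)]
  exact (tendsto_nhds_unique (h1.congr' h2) tendsto_const_nhds).symm

/-- The tree space is reflexive. -/
theorem reflexive : Function.Surjective (NormedSpace.inclusionInDoubleDual ℝ X) := by
  intro Φ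
  refine ⟨mkX _ (bidual_mem Φ), ?_⟩
  have h := bidual_zero (NormedSpace.inclusionInDoubleDual ℝ X (mkX _ (bidual_mem Φ)) - Φ)
    (fun s => by
      rw [ContinuousLinearMap.sub_apply, NormedSpace.dual_def, ev_apply, fn_mk, sub_self])
  exact sub_eq_zero.mp h

end Vale.Agent.P069
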