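import Vale.Agent.P069.Refl3

/-!
# Separability and the quantitative midpoint modulus
-/

namespace Vale.Agent.P069

open Filter Topology

lemma P_eq_sum {S : Finset (List ℕ)} (hS : Sub S) (y : X) :
    P S hS y = ∑ s ∈ S, fn y s • un s := by
  classical
  refine fn_inj (funext fun r => ?_)
  rw [coe_sum]
  have e2 : ∀ s ∈ S, fn (fn y s • un s) r = if r = s then fn y s else 0 := by
    intro s _
    rw [map_smul, Pi.smul_apply, smul_eq_mul]
    by_cases hs : Good s
    · rw [fn_un hs]; split_ifs <;> ring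
    · rw [bad_zero y hs]; simp
  rw [Finset.sum_congr rfl e2, Finset.sum_ite_eq S r (fun s => fn y s)]
  by_cases hr : r ∈ S
  · rw [if_pos hr, fn_P_in hS y hr]
  · rw [if_neg hr, fn_P_out hS y hr]

/-- The tree space is separable. -/
theorem separable : TopologicalSpace.SeparableSpace X := by
  have h1 : TopologicalSpace.IsSeparable (Set.range un) := (Set.countable_range un).isSeparable
  have h2 : TopologicalSpace.IsSeparable (Submodule.span ℝ (Set.range un) : Set X) := h1.span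
  have h3 := h2.closure
  have h4 : closure (Submodule.span ℝ (Set.range un) : Set X) = Set.univ := by
    refine Set.eq_univ_of_forall fun b => ?_
    rw [Metric.mem_closure_iff]
    intro ε hε
    obtain ⟨S, hS, hb⟩ := density b (half_pos hε)
    refine ⟨P S hS b, ?_, ?_⟩
    · rw [P_eq_sum]
      exact Submodule.sum_mem _ fun s _ =>
        Submodule.smul_mem _ _ (Submodule.subset_span ⟨s, rfl⟩)
    · rw [dist_eq_norm]
      linarith
  rw [h4] at h3
  exact TopologicalSpace.isSeparable_univ_iff.mp h3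

/-- Quantitative form: the midpoint modulus has power type four. -/
theorem amuc_quant {t : ℝ} (ht : 0 < t) (ht1 : t ≤ 1) :
    ((t ^ 4 / 65536 : ℝ) : EReal) ≤ amucMod (fun x : X => ‖x‖) t := by
  set δ : ℝ := t ^ 4 / 65536 with hδ
  have hδ0 : 0 < δ := by positivity
  have ht4 : 0 < t ^ 4 := by positivity
  have ht41 : t ^ 4 ≤ 1 := pow_le_one₀ ht.le ht1
  have hδ1 : δ ≤ 1 / 4 := by rw [hδ]; linarith
  have hδ2 : δ ≤ t ^ 4 / 65536 := le_rfl
  refine le_iInf₂ fun x hx => ?_
  obtain ⟨S, hS, hxS⟩ := density x hδ0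
  refine le_trans ?_ (le_iSup₂ (FS S) (FS_cof S))
  refine le_iInf₂ fun y hy => ?_
  obtain ⟨hyF, hy1⟩ := hy
  rw [EReal.coe_le_coe_iff]
  by_contra hc
  push Not at hc
  set μ := max ‖x + t • y‖ ‖x - t • y‖ with hμ
  have h1 : ‖x + t • y‖ ≤ μ := le_max_left _ _
  have h2 : ‖x - t • y‖ ≤ μ := le_max_right _ _
  have hx' : ‖x‖ = 1 := hx
  have hy' : ‖y‖ = 1 := hy1
  set b := P S hS x with hb
  have hbn : ‖x‖ - δ ≤ ‖b‖ := by
    have := norm_sub_norm_le x b
    linarith
  have h3 : ‖b + t • y‖ < μ + 2 * δ := by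
    have e : b + t • y = (x + t • y) - (x - b) := by abel
    rw [e]
    have := norm_sub_le (x + t • y) (x - b)
    linarith
  have h4 : ‖b - t • y‖ < μ + 2 * δ := by
    have e : b - t • y = (x - t • y) - (x - b) := by abel
    rw [e]
    have := norm_sub_le (x - t • y) (x - b)
    linarith
  obtain ⟨u, v, hd, hlt⟩ := exists_dec (fn_mem (b + t • y)) h3
  obtain ⟨u', v', hd', hlt'⟩ := exists_dec (fn_mem (b - t • y)) h4
  rw [map_add] at hd
  rw [map_sub] at hd'
  have hz : ∀ s, s ∈ S → fn (t • y) s = 0 := by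
    intro s hs
    rw [map_smul, Pi.smul_apply, mem_FS.mp hyF s hs, smul_zero]
  have h5 := core (fn_mem b) hS (fun s hs => fn_P_out hS x hs) hz hd hd' hlt.le hlt'.le
  rw [← norm_def, ← norm_def, norm_smul, hy', mul_one, Real.norm_eq_abs, abs_of_pos ht] at h5
  have hμ0 : 0 ≤ μ := (norm_nonneg _).trans h1
  have h6 : (μ + 2 * δ) ^ 3 ≤ 2 ^ 3 := pow_le_pow_left₀ (by linarith) (by linarith) 3
  have h7 : μ + 2 * δ - ‖b‖ ≤ 4 * δ := by linarith
  have h8 : (1024 : ℝ) * (μ + 2 * δ) ^ 3 * (μ + 2 * δ - ‖b‖) ≤ 1024 * 2 ^ 3 * (4 * δ) := by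
    have h9 : 0 ≤ μ + 2 * δ - ‖b‖ ∨ μ + 2 * δ - ‖b‖ < 0 := le_or_gt 0 _
    have h10 : 0 ≤ (μ + 2 * δ) ^ 3 := by positivity
    rcases h9 with h9 | h9
    · exact mul_le_mul (by linarith) h7 h9 (by norm_num)
    · nlinarith
  nlinarith

end Vale.Agent.P069
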