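import Mathlib

/-!
# The tree cone and the tree norm
-/

namespace Vale.Agent.P069

/-- Nodes are finite lists of natural numbers; the parent of `n :: s` is `s`. A node is admissible
if its length is at most one plus its first branching index (the last entry of the list). -/
def Good (s : List ℕ) : Prop := ∀ h : s ≠ [], s.length ≤ s.getLast h + 1

lemma good_nil : Good [] := fun h => absurd rfl h

lemma good_single (n : ℕ) : Good [n] := by
  intro h
  simp

lemma Good.tail {n : ℕ} {s : List ℕ} (h : Good (n :: s)) : Good s := by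
  intro hs
  have := h (List.cons_ne_nil n s)
  rw [List.getLast_cons hs, List.length_cons] at this
  omega

/-- Induction from the children to the parent. -/
lemma wf_ind (Q : List ℕ → Prop)
    (h : ∀ s, Good s → (∀ n, Good (n :: s) → Q (n :: s)) → Q s) : ∀ s, Good s → Q s := by
  have key : ∀ k : ℕ, ∀ s, ∀ hs : s ≠ [], Good s → s.getLast hs + 1 - s.length ≤ k → Q s := by
    intro k
    induction k with
    | zero =>
      intro s hs hg hk
      refine h s hg fun n hn => ?_
      exfalso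
      have h1 := hn (List.cons_ne_nil n s)
      rw [List.getLast_cons hs, List.length_cons] at h1
      omega
    | succ k ih =>
      intro s hs hg hk
      refine h s hg fun n hn => ?_
      refine ih (n :: s) (List.cons_ne_nil n s) hn ?_
      rw [List.getLast_cons hs, List.length_cons]
      omega
  intro s hg
  by_cases hs : s = []
  · subst hs
    refine h [] hg fun n hn => ?_
    exact key _ [n] (List.cons_ne_nil n []) hn le_rfl
  · exact key _ s hs hg le_rfl

/-- The cone. -/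
structure D (u : List ℕ → ℝ) : Prop where
  nonneg : ∀ s, 0 ≤ u s
  bad : ∀ s, ¬ Good s → u s = 0
  sum_le : ∀ s (A : Finset ℕ), ∑ n ∈ A, u (n :: s) ^ 2 ≤ u s ^ 2

lemma D.zero : D (fun _ => 0) := ⟨fun _ => le_rfl, fun _ _ => rfl, fun _ _ => by simp⟩

lemma D.add {u v : List ℕ → ℝ} (hu : D u) (hv : D v) : D (fun s => u s + v s) := by
  refine ⟨fun s => add_nonneg (hu.nonneg s) (hv.nonneg s), fun s hs => ?_, fun s A => ?_⟩
  · rw [hu.bad s hs, hv.bad s hs, add_zero]
  · have h1 := hu.sum_le s A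
    have h2 := hv.sum_le s A
    have h3 := Finset.sum_mul_sq_le_sq_mul_sq A (fun n => u (n :: s)) (fun n => v (n :: s))
    have h4 : (∑ n ∈ A, u (n :: s) * v (n :: s)) ^ 2 ≤ (u s * v s) ^ 2 := by
      refine h3.trans ?_
      rw [mul_pow]
      exact mul_le_mul h1 h2 (Finset.sum_nonneg fun _ _ => sq_nonneg _) (sq_nonneg _)
    have h5 : ∑ n ∈ A, u (n :: s) * v (n :: s) ≤ u s * v s :=
      le_of_sq_le_sq' h4 (mul_nonneg (hu.nonneg s) (hv.nonneg s))
    have h6 : ∑ n ∈ A, (u (n :: s) + v (n :: s)) ^ 2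
        = ∑ n ∈ A, u (n :: s) ^ 2 + 2 * ∑ n ∈ A, u (n :: s) * v (n :: s)
          + ∑ n ∈ A, v (n :: s) ^ 2 := by
      rw [Finset.mul_sum, ← Finset.sum_add_distrib, ← Finset.sum_add_distrib]
      refine Finset.sum_congr rfl fun n _ => ?_
      ring
    rw [h6]
    nlinarith
where
  le_of_sq_le_sq' {a b : ℝ} (h : a ^ 2 ≤ b ^ 2) (hb : 0 ≤ b) : a ≤ b := by
    by_contra hc
    push Not at hc
    nlinarith

lemma D.smul {u : List ℕ → ℝ} (hu : D u) {c : ℝ} (hc : 0 ≤ c) : D (fun s => c * u s) := by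
  refine ⟨fun s => mul_nonneg hc (hu.nonneg s), fun s hs => ?_, fun s A => ?_⟩
  · rw [hu.bad s hs, mul_zero]
  · simp only [mul_pow]
    rw [← Finset.mul_sum]
    exact mul_le_mul_of_nonneg_left (hu.sum_le s A) (sq_nonneg c)

lemma D.child_le {u : List ℕ → ℝ} (hu : D u) (n : ℕ) (s : List ℕ) : u (n :: s) ≤ u s := by
  have := hu.sum_le s {n}
  rw [Finset.sum_singleton] at this
  exact (sq_le_sq₀ (hu.nonneg _) (hu.nonneg _)).mp this

lemma D.le_root {u : List ℕ → ℝ} (hu : D u) (s : List ℕ) : u s ≤ u [] := by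
  induction s with
  | nil => exact le_rfl
  | cons n s ih => exact (hu.child_le n s).trans ih

/-- A decomposition of `b`. -/
structure Dec (b u v : List ℕ → ℝ) : Prop where
  hu : D u
  hv : D v
  eq : ∀ s, b s = u s - v s

lemma Dec.add {b b' u u' v v' : List ℕ → ℝ} (h : Dec b u v) (h' : Dec b' u' v') :
    Dec (b + b') (fun s => u s + u' s) (fun s => v s + v' s) :=
  ⟨h.hu.add h'.hu, h.hv.add h'.hv, fun s => by rw [Pi.add_apply, h.eq, h'.eq]; ring⟩

lemma Dec.smul_nonneg {b u v : List ℕ → ℝ} (h : Dec b u v) {c : ℝ} (hc : 0 ≤ c) :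
    Dec (c • b) (fun s => c * u s) (fun s => c * v s) :=
  ⟨h.hu.smul hc, h.hv.smul hc, fun s => by rw [Pi.smul_apply, smul_eq_mul, h.eq]; ring⟩

lemma Dec.neg {b u v : List ℕ → ℝ} (h : Dec b u v) : Dec (-b) v u :=
  ⟨h.hv, h.hu, fun s => by rw [Pi.neg_apply, h.eq]; ring⟩

lemma Dec.smul {b u v : List ℕ → ℝ} (h : Dec b u v) (c : ℝ) :
    ∃ u' v', Dec (c • b) u' v' ∧ u' [] + v' [] = |c| * (u [] + v []) := by
  rcases le_total 0 c with hc | hc
  · exact ⟨_, _, h.smul_nonneg hc, by rw [abs_of_nonneg hc]; ring⟩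
  · have h2 := (h.smul_nonneg (neg_nonneg.mpr hc)).neg
    refine ⟨fun s => -c * v s, fun s => -c * u s, ?_, ?_⟩
    · have e : -(-c • b) = c • b := by simp
      rw [← e]; exact h2
    · rw [abs_of_nonpos hc]; ring

/-- The vector space of differences. -/
def XS : Submodule ℝ (List ℕ → ℝ) where
  carrier := {b | ∃ u v, Dec b u v}
  add_mem' := by
    rintro b b' ⟨u, v, h⟩ ⟨u', v', h'⟩
    exact ⟨_, _, h.add h'⟩
  zero_mem' := ⟨_, _, D.zero, D.zero, fun s => by simp⟩
  smul_mem' := by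
    rintro c b ⟨u, v, h⟩
    obtain ⟨u', v', h', -⟩ := h.smul c
    exact ⟨u', v', h'⟩

/-- The tree space. -/
def X : Type := XS

instance : AddCommGroup X := inferInstanceAs (AddCommGroup XS)

instance : Module ℝ X := inferInstanceAs (Module ℝ XS)

/-- The underlying function, as a linear map. -/
def fn : X →ₗ[ℝ] (List ℕ → ℝ) := XS.subtype

lemma fn_mem (b : X) : fn b ∈ XS := b.2

lemma fn_inj {b b' : X} (h : fn b = fn b') : b = b' := Subtype.ext h

/-- Constructor. -/
def mkX (b : List ℕ → ℝ) (hb : b ∈ XS) : X := ⟨b, hb⟩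

lemma fn_mk (b : List ℕ → ℝ) (hb : b ∈ XS) : fn (mkX b hb) = b := rfl

/-- The set of costs of decompositions. -/
def costs (b : List ℕ → ℝ) : Set ℝ := {r | ∃ u v, Dec b u v ∧ u [] + v [] = r}

lemma costs_nonneg {b : List ℕ → ℝ} {r : ℝ} (h : r ∈ costs b) : 0 ≤ r := by
  obtain ⟨u, v, h, rfl⟩ := h
  exact add_nonneg (h.hu.nonneg _) (h.hv.nonneg _)

lemma costs_bdd (b : List ℕ → ℝ) : BddBelow (costs b) := ⟨0, fun _ h => costs_nonneg h⟩

/-- The tree norm. -/
noncomputable def NN (b : List ℕ → ℝ) : ℝ := sInf (costs b)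

lemma NN_nonneg (b : List ℕ → ℝ) : 0 ≤ NN b := Real.sInf_nonneg fun _ h => costs_nonneg h

lemma NN_le {b u v : List ℕ → ℝ} (h : Dec b u v) : NN b ≤ u [] + v [] :=
  csInf_le (costs_bdd b) ⟨u, v, h, rfl⟩

lemma exists_dec {b : List ℕ → ℝ} (hb : b ∈ XS) {r : ℝ} (hr : NN b < r) :
    ∃ u v, Dec b u v ∧ u [] + v [] < r := by
  obtain ⟨u, v, h⟩ := hb
  obtain ⟨r', ⟨u', v', h', rfl⟩, hlt⟩ :=
    exists_lt_of_csInf_lt (s := costs b) ⟨u [] + v [], u, v, h, rfl⟩ hr
  exact ⟨u', v', h', hlt⟩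

lemma NN_add {b b' : List ℕ → ℝ} (hb : b ∈ XS) (hb' : b' ∈ XS) :
    NN (b + b') ≤ NN b + NN b' := by
  refine le_of_forall_pos_le_add fun ε hε => ?_
  obtain ⟨u, v, h, hlt⟩ := exists_dec hb (r := NN b + ε / 2) (by linarith)
  obtain ⟨u', v', h', hlt'⟩ := exists_dec hb' (r := NN b' + ε / 2) (by linarith)
  have := NN_le (h.add h')
  linarith

lemma NN_smul_le {b : List ℕ → ℝ} (hb : b ∈ XS) (c : ℝ) : NN (c • b) ≤ |c| * NN b := by
  refine le_of_forall_pos_le_add fun ε hε => ?_
  obtain ⟨u, v, h, hlt⟩ := exists_dec hb (r := NN b + ε / (|c| + 1))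
    (by linarith [div_pos hε (by positivity : (0 : ℝ) < |c| + 1)])
  obtain ⟨u', v', h', he⟩ := h.smul c
  refine (NN_le h').trans ?_
  rw [he]
  have h1 : |c| * (u [] + v []) ≤ |c| * (NN b + ε / (|c| + 1)) :=
    mul_le_mul_of_nonneg_left hlt.le (abs_nonneg c)
  have h2 : |c| * (ε / (|c| + 1)) ≤ ε := by
    rw [mul_div_assoc', div_le_iff₀ (by positivity)]
    nlinarith [abs_nonneg c]
  linarith

lemma NN_smul {b : List ℕ → ℝ} (hb : b ∈ XS) (c : ℝ) : NN (c • b) = |c| * NN b := by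
  refine le_antisymm (NN_smul_le hb c) ?_
  by_cases hc : c = 0
  · subst hc
    rw [abs_zero, zero_mul]
    exact NN_nonneg _
  · have h := NN_smul_le (XS.smul_mem c hb) c⁻¹
    rw [smul_smul, inv_mul_cancel₀ hc, one_smul, abs_inv] at h
    have hpos : 0 < |c| := abs_pos.mpr hc
    calc |c| * NN b ≤ |c| * (|c|⁻¹ * NN (c • b)) := mul_le_mul_of_nonneg_left h hpos.le
      _ = NN (c • b) := by rw [← mul_assoc, mul_inv_cancel₀ hpos.ne', one_mul]

lemma abs_le_NN {b : List ℕ → ℝ} (hb : b ∈ XS) (s : List ℕ) : |b s| ≤ NN b := by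
  refine le_of_forall_pos_le_add fun ε hε => ?_
  obtain ⟨u, v, h, hlt⟩ := exists_dec hb (r := NN b + ε) (by linarith)
  have h1 := h.hu.le_root s
  have h2 := h.hv.le_root s
  have h3 := h.hu.nonneg s
  have h4 := h.hv.nonneg s
  rw [h.eq s, abs_le]
  constructor <;> linarith

lemma NN_zero_iff {b : List ℕ → ℝ} (hb : b ∈ XS) (h : NN b = 0) : b = 0 := by
  funext s
  have := abs_le_NN hb s
  rw [h] at this
  exact abs_nonpos_iff.mp this

noncomputable instance : Norm X := ⟨fun b => NN (fn b)⟩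

lemma norm_def (b : X) : ‖b‖ = NN (fn b) := rfl

theorem coreX : NormedSpace.Core ℝ X where
  norm_nonneg b := NN_nonneg (fn b)
  norm_smul c b := by
    rw [norm_def, norm_def, map_smul, NN_smul (fn_mem b), Real.norm_eq_abs]
  norm_triangle b b' := by
    rw [norm_def, norm_def, norm_def, map_add]
    exact NN_add (fn_mem b) (fn_mem b')
  norm_eq_zero_iff b := by
    constructor
    · intro h
      refine fn_inj ?_
      rw [map_zero]
      exact NN_zero_iff (fn_mem b) h
    · rintro rfl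
      rw [norm_def, map_zero]
      have := NN_smul (XS.zero_mem) (0 : ℝ)
      rw [smul_zero, abs_zero, zero_mul] at this
      exact this

noncomputable instance : NormedAddCommGroup X := NormedAddCommGroup.ofCore coreX

noncomputable instance : NormedSpace ℝ X := NormedSpace.ofCore coreX

end Vale.Agent.P069
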